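import Vale.Agent.P244.A.Id3

/-!
N4, first part: derivatives along level curves of `ϱ` (from the right).
Plan `level_deriv`: let `d` be the claimed derivative, `y₀ = Y t`.  For `m ≠ d` the function
`s ↦ ρ s (y₀ + m (s - t)) - l s` vanishes at `t` and has derivative `ρ_y (m - d)` within `Icc t t₁`
at `t` (`SmAt.hasF`, `HasFDerivWithinAt.comp_hasDerivWithinAt_of_eq` or `.comp_hasDerivWithinAt` on a
small set where `y₀ + m (s - t) ∈ Ioo 0 y₁`; use `HasFDerivWithinAt` with `Tendsto` form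
`HasFDerivAtFilter.comp`, or restrict to `Icc t t₁ ∩ nbhd` and `hasDerivWithinAt_inter`).  So for
`s > t` near `t` it has the sign of `m - d` (`hasDerivWithinAt_iff_tendsto_slope'`), and strict
monotonicity gives `Y s < y₀ + (d + ε) (s - t)` and `y₀ + (d - ε) (s - t) < Y s`.  Conclude with
`hasDerivWithinAt_iff_tendsto_slope'` and `tendsto_order`/`Metric.tendsto_nhds`.
`level_comp`: chain rule, `dX ϱ = 2/3 k ϱ` (`dX_rho`, unfold `dX`), so `ϱ_y > 0` and `g_y / ϱ_y = D g`.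
`right_max`: slopes from the right are nonpositive (`Ioo t t₁` is in `𝓝[>] t`).
-/

namespace Vale.Agent.P244

open scoped ContDiff Topology
open Set Filter Real

theorem nLev_line {ρ : Fn} {t₁ t y₁ y₀ : ℝ} (ht : t ∈ Ico 0 t₁) (hy₁ : y₁ ≤ 1)
    (hy : y₀ ∈ Ioo 0 y₁) (hρ : SmAt (Icc 0 t₁) ρ t y₀) (m : ℝ) :
    (∀ᶠ s in 𝓝 t, y₀ + m * (s - t) ∈ Ioo 0 y₁) ∧
    HasDerivWithinAt (fun s => ρ s (y₀ + m * (s - t)))
      (dT (Icc 0 t₁) ρ t y₀ + dY ρ t y₀ * m) (Icc t t₁) t := by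
  have hc : Continuous fun s : ℝ => y₀ + m * (s - t) := by fun_prop
  have hev : ∀ᶠ s in 𝓝 t, y₀ + m * (s - t) ∈ Ioo 0 y₁ := by
    refine hc.continuousAt.eventually (isOpen_Ioo.mem_nhds ?_)
    simpa using hy
  refine ⟨hev, ?_⟩
  have hF := hρ.hasF (ti_Icc (ht.1.trans_lt ht.2)) ⟨ht.1, ht.2.le⟩ ⟨hy.1.le, hy.2.le.trans hy₁⟩
  have h1 : HasDerivAt (fun s : ℝ => y₀ + m * (s - t)) m t := by
    have := (((hasDerivAt_id t).sub_const t).const_mul m).const_add y₀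
    simpa using this
  have h2 : HasDerivAt (fun s : ℝ => ((s, y₀ + m * (s - t)) : ℝ × ℝ)) (1, m) t :=
    (hasDerivAt_id t).prodMk h1
  have h3 := hF.comp_hasDerivWithinAt_of_eq t
    (s := Icc t t₁ ∩ {s | y₀ + m * (s - t) ∈ Ioo 0 y₁}) h2.hasDerivWithinAt
    (fun s hs => ⟨⟨ht.1.trans hs.1.1, hs.1.2⟩, hs.2.1.le, hs.2.2.le.trans hy₁⟩) (by simp)
  rw [hasDerivWithinAt_inter hev] at h3
  refine h3.congr_deriv ?_
  simp

theorem level_deriv {ρ : Fn} {Y l : ℝ → ℝ} {t₁ t y₁ d : ℝ} (ht : t ∈ Ico 0 t₁) (hy₁ : y₁ ≤ 1)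
    (hy : Y t ∈ Ioo 0 y₁) (hρ : SmAt (Icc 0 t₁) ρ t (Y t)) (hp : 0 < dY ρ t (Y t))
    (hm : ∀ s ∈ Icc 0 t₁, StrictMonoOn (ρ s) (Icc 0 y₁))
    (hY : ∀ s ∈ Icc 0 t₁, Y s ∈ Icc 0 y₁ ∧ ρ s (Y s) = l s) (hl : HasDerivAt l d t) :
    HasDerivWithinAt Y ((d - dT (Icc 0 t₁) ρ t (Y t)) / dY ρ t (Y t)) (Icc t t₁) t := by
  have key : ∀ m : ℝ, Tendsto (slope (fun s => ρ s (Y t + m * (s - t)) - l s) t)
      (𝓝[Icc t t₁ \ {t}] t) (𝓝 (dT (Icc 0 t₁) ρ t (Y t) + dY ρ t (Y t) * m - d)) := fun m =>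
    hasDerivWithinAt_iff_tendsto_slope.1
      ((nLev_line ht hy₁ hy hρ m).2.fun_sub hl.hasDerivWithinAt)
  have h0 : ρ t (Y t) = l t := (hY t ⟨ht.1, ht.2.le⟩).2
  have hs : ∀ (m s : ℝ), slope (fun s => ρ s (Y t + m * (s - t)) - l s) t s =
      (ρ s (Y t + m * (s - t)) - l s) / (s - t) := by
    intro m s
    rw [slope_def_field]
    simp [h0]
  rw [hasDerivWithinAt_iff_tendsto_slope]
  refine tendsto_order.2 ⟨fun m hm' => ?_, fun m hm' => ?_⟩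
  · rw [lt_div_iff₀ hp] at hm'
    have hlt : dT (Icc 0 t₁) ρ t (Y t) + dY ρ t (Y t) * m - d < 0 := by linarith
    have h1 := (key m).eventually (gt_mem_nhds hlt)
    filter_upwards [h1, nhdsWithin_le_nhds (nLev_line ht hy₁ hy hρ m).1, self_mem_nhdsWithin]
      with s a1 a2 a3
    have hst : 0 < s - t := sub_pos.2 (lt_of_le_of_ne a3.1.1 (Ne.symm a3.2))
    have hsI : s ∈ Icc 0 t₁ := ⟨ht.1.trans a3.1.1, a3.1.2⟩
    rw [hs, div_lt_iff₀ hst, zero_mul, sub_neg, ← (hY s hsI).2,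
      (hm s hsI).lt_iff_lt (Ioo_subset_Icc_self a2) (hY s hsI).1] at a1
    rw [slope_def_field, lt_div_iff₀ hst]
    linarith
  · rw [gt_iff_lt, div_lt_iff₀ hp] at hm'
    have hlt : 0 < dT (Icc 0 t₁) ρ t (Y t) + dY ρ t (Y t) * m - d := by linarith
    have h1 := (key m).eventually (lt_mem_nhds hlt)
    filter_upwards [h1, nhdsWithin_le_nhds (nLev_line ht hy₁ hy hρ m).1, self_mem_nhdsWithin]
      with s a1 a2 a3
    have hst : 0 < s - t := sub_pos.2 (lt_of_le_of_ne a3.1.1 (Ne.symm a3.2))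
    have hsI : s ∈ Icc 0 t₁ := ⟨ht.1.trans a3.1.1, a3.1.2⟩
    rw [hs, lt_div_iff₀ hst, zero_mul, sub_pos, ← (hY s hsI).2,
      (hm s hsI).lt_iff_lt (hY s hsI).1 (Ioo_subset_Icc_self a2)] at a1
    rw [slope_def_field, div_lt_iff₀ hst]
    linarith

theorem St.Sol.level_comp {S : St} {g : Fn} {Y l : ℝ → ℝ} {t₁ t y₁ d : ℝ} (h : S.Sol t₁)
    (ht : t ∈ Ico 0 t₁) (hy₁ : y₁ ≤ 1) (hy : Y t ∈ Ioo 0 y₁) (hk : 0 < S.kk t (Y t))
    (hm : ∀ s ∈ Icc 0 t₁, StrictMonoOn (S.rho s) (Icc 0 y₁))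
    (hY : ∀ s ∈ Icc 0 t₁, Y s ∈ Icc 0 y₁ ∧ S.rho s (Y s) = l s) (hl : HasDerivAt l d t)
    (hg : SmAt (Icc 0 t₁) g t (Y t)) :
    HasDerivWithinAt (fun s => g s (Y s))
      (S.hT (Icc 0 t₁) g t (Y t) + d * S.Dr g t (Y t)) (Icc t t₁) t := by
  have htI : t ∈ Icc 0 t₁ := ⟨ht.1, ht.2.le⟩
  have hy' : Y t ∈ Ioo (0 : ℝ) 1 := ⟨hy.1, hy.2.trans_le hy₁⟩
  have hv : 0 < Y t * (1 - Y t) := St.id0_v' hy'
  have hr : 0 < S.rho t (Y t) := S.rho_pos hy'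
  have e : 2 * (Y t * (1 - Y t)) * dY S.rho t (Y t) = 2 / 3 * S.kk t (Y t) * S.rho t (Y t) :=
    h.dX_rho htI hy'
  have hp : 0 < dY S.rho t (Y t) := by
    have h1 : 0 < 2 * (Y t * (1 - Y t)) * dY S.rho t (Y t) := by
      rw [e]
      positivity
    exact (mul_pos_iff_of_pos_left (by positivity)).1 h1
  have hD := level_deriv ht hy₁ hy (h.sm_rho htI hy') hp hm hY hl
  have hF := hg.hasF h.ti htI (Ioo_subset_Icc_self hy')
  have h2 : HasDerivWithinAt (fun s : ℝ => ((s, Y s) : ℝ × ℝ))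
      (1, (d - dT (Icc 0 t₁) S.rho t (Y t)) / dY S.rho t (Y t)) (Icc t t₁) t :=
    (hasDerivWithinAt_id t _).prodMk hD
  have hmap : MapsTo (fun s : ℝ => ((s, Y s) : ℝ × ℝ)) (Icc t t₁) (Icc 0 t₁ ×ˢ Icc 0 1) := by
    intro s hs
    have hsI : s ∈ Icc 0 t₁ := ⟨ht.1.trans hs.1, hs.2⟩
    exact ⟨hsI, (hY s hsI).1.1, (hY s hsI).1.2.trans hy₁⟩
  have h3 := hF.comp_hasDerivWithinAt t h2 hmap
  have e2 : S.Dr g t (Y t) = dY g t (Y t) / dY S.rho t (Y t) := by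
    have e3 : 2 * S.kk t (Y t) * S.rho t (Y t) =
        3 * (2 * (Y t * (1 - Y t)) * dY S.rho t (Y t)) := by
      rw [e]
      ring
    have hv' := hv.ne'
    have hp' := hp.ne'
    unfold St.Dr dX
    rw [e3, div_eq_div_iff (by positivity) hp']
    ring
  refine h3.congr_deriv ?_
  unfold St.hT
  rw [e2]
  simp only [add_apply, smul_apply,
    ContinuousLinearMap.coe_fst', ContinuousLinearMap.coe_snd', smul_eq_mul]
  ring

theorem right_max {Φ : ℝ → ℝ} {t t₁ d : ℝ} (ht : t < t₁) (hd : HasDerivWithinAt Φ d (Icc t t₁) t)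
    (hm : ∀ s ∈ Icc t t₁, Φ s ≤ Φ t) : d ≤ 0 := by
  have h1 := hd.mono (Ioo_subset_Icc_self (a := t) (b := t₁))
  rw [hasDerivWithinAt_iff_tendsto_slope' (by simp), nhdsWithin_Ioo_eq_nhdsGT ht] at h1
  refine le_of_tendsto h1 ?_
  filter_upwards [Ioo_mem_nhdsGT ht] with s hs
  rw [slope_def_field]
  exact div_nonpos_of_nonpos_of_nonneg (sub_nonpos.2 (hm s (Ioo_subset_Icc_self hs)))
    (sub_nonneg.2 hs.1.le)

end Vale.Agent.P244
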