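import Vale.Agent.P244.N.Int
import Vale.Agent.P244.N.Lev

/-!
N4: the three exit directions are transversal.
-/

namespace Vale.Agent.P244

open scoped ContDiff Topology
open Set Filter Real

theorem exit_aux {g : ℝ → ℝ} {d a τ₀ t t₁ : ℝ} {p : ℕ} (ht : t < t₁)
    (hd : HasDerivWithinAt g d (Icc t t₁) t) (hb : ∀ s ∈ Icc t t₁, |g s| ≤ a * (τ₀ - s) ^ (p + 1))
    (hs : |d| < (p + 1) * a * (τ₀ - t) ^ p) : |g t| < a * (τ₀ - t) ^ (p + 1) := by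
  have hw : HasDerivWithinAt (fun s => a * (τ₀ - s) ^ (p + 1)) (-((p + 1) * a * (τ₀ - t) ^ p))
      (Icc t t₁) t := by
    have h1 := ((((hasDerivAt_id' t).const_sub τ₀).fun_pow (p + 1)).const_mul a).hasDerivWithinAt
      (s := Icc t t₁)
    refine h1.congr_deriv ?_
    simp only [Nat.add_sub_cancel]
    push_cast
    ring
  obtain ⟨h1, h2⟩ := abs_lt.1 hs
  by_contra hn
  rw [not_lt] at hn
  rcases le_abs.1 hn with h | h
  · have := right_max ht (hd.sub hw) fun s hs => by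
      have := (abs_le.1 (hb s hs)).2
      simp only [Pi.sub_apply]
      linarith
    linarith
  · have := right_max ht (hd.neg.sub hw) fun s hs => by
      have := (abs_le.1 (hb s hs)).1
      simp only [Pi.sub_apply, Pi.neg_apply]
      linarith
    linarith

section real

variable {η δ τ Z1 X Z2 Z2' Z3 Z3' E E' : ℝ} (hη : 0 < η) (hη' : η ≤ 1 / 1000) (hδ : 0 < δ)
  (hτ : 0 < τ)
include hη hη' hδ hτ

theorem tr_Z2 (h1 : |X| ≤ δ / 10 * η * τ ^ 2)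
    (h2 : |X - η * τ * Z2| ≤ δ * η / 1000 * (η * τ) ^ 2) : |Z2| ≤ δ * τ / 9 := by
  have hr : 0 < η * τ := by positivity
  have h3 : |η * τ * Z2| ≤ η * τ * (δ * τ / 9) := by
    have e : η * τ * Z2 = X - (X - η * τ * Z2) := by ring
    have h4 : η * η ≤ 1 := by nlinarith
    have h5 : 0 < δ * η * τ ^ 2 := by positivity
    calc |η * τ * Z2| ≤ |X| + |X - η * τ * Z2| := by rw [e]; exact (abs_sub _ _).trans_eq (by rw [← e])
      _ ≤ δ / 10 * η * τ ^ 2 + δ * η / 1000 * (η * τ) ^ 2 := add_le_add h1 h2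
      _ ≤ η * τ * (δ * τ / 9) := by nlinarith
  rw [abs_mul, abs_of_pos hr] at h3
  exact le_of_mul_le_mul_left h3 hr

theorem tr_0 (h1 : |Z1| ≤ δ / 2 * τ ^ 2) (h2 : |Z2| ≤ δ * τ / 9) (h3 : |E| ≤ δ * η / 1000 * τ ^ 2) :
    |16 / 9 * (η * τ) * Z2 + 40 / 9 * Z1 + E + -η * Z1| < 3 * δ * τ ^ 2 := by
  have a1 : |16 / 9 * (η * τ) * Z2| ≤ 16 / 9 * (η * τ) * (δ * τ / 9) := by
    rw [abs_mul, abs_of_pos (by positivity : 0 < 16 / 9 * (η * τ))]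
    gcongr
  have a2 : |(40 / 9 - η) * Z1| ≤ 40 / 9 * (δ / 2 * τ ^ 2) := by
    rw [abs_mul, abs_of_pos (by linarith : 0 < 40 / 9 - η)]
    gcongr
    linarith
  have h5 : 0 < δ * τ ^ 2 := by positivity
  have h6 : η * (δ * τ ^ 2) ≤ 1 / 1000 * (δ * τ ^ 2) := by gcongr
  obtain ⟨b1, b2⟩ := abs_le.1 a1
  obtain ⟨b3, b4⟩ := abs_le.1 a2
  obtain ⟨b5, b6⟩ := abs_le.1 h3
  rw [abs_lt]
  constructor <;> nlinarith

theorem tr_1 (h2 : |Z2| ≤ δ * τ / 9) (h3 : |Z3| ≤ δ * η / 1000) (h4 : |E| ≤ δ * η / 1000 * τ) :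
    |16 / 9 * (η * τ) * Z3 + 56 / 9 * Z2 + E + -η * Z2| < δ * τ := by
  have a1 : |16 / 9 * (η * τ) * Z3| ≤ 16 / 9 * (η * τ) * (δ * η / 1000) := by
    rw [abs_mul, abs_of_pos (by positivity : 0 < 16 / 9 * (η * τ))]
    gcongr
  have a2 : |(56 / 9 - η) * Z2| ≤ 56 / 9 * (δ * τ / 9) := by
    rw [abs_mul, abs_of_pos (by linarith : 0 < 56 / 9 - η)]
    gcongr
    linarith
  have h5 : 0 < δ * τ := by positivity
  have h6 : η * (δ * τ) ≤ 1 / 1000 * (δ * τ) := by gcongr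
  have h7 : η * (η * (δ * τ)) ≤ 1 / 1000 * (δ * τ) := by nlinarith
  obtain ⟨b1, b2⟩ := abs_le.1 a1
  obtain ⟨b3, b4⟩ := abs_le.1 a2
  obtain ⟨b5, b6⟩ := abs_le.1 h4
  rw [abs_lt]
  constructor <;> nlinarith

theorem tr_2 (h2 : |Z2| ≤ δ * τ / 9) (h2' : |Z2' - Z2| ≤ δ * η / 1000 * (2 * η * τ - η * τ))
    (h3 : |Z3| ≤ δ * η / 1000) (h3' : |Z3'| ≤ δ * η / 1000) (h4 : |E| ≤ δ * η / 1000 * τ)
    (h4' : |E'| ≤ δ * η / 1000 * τ) :
    |16 / 9 * (2 * η * τ) * Z3' + 56 / 9 * Z2' + E' + -(2 * η) * Z2' -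
      (16 / 9 * (η * τ) * Z3 + 56 / 9 * Z2 + E + -η * Z2)| < 2 * (δ / 10 * η) * τ := by
  have a1 : |16 / 9 * (η * τ) * Z3| ≤ 16 / 9 * (η * τ) * (δ * η / 1000) := by
    rw [abs_mul, abs_of_pos (by positivity : 0 < 16 / 9 * (η * τ))]
    gcongr
  have a1' : |16 / 9 * (2 * η * τ) * Z3'| ≤ 16 / 9 * (2 * η * τ) * (δ * η / 1000) := by
    rw [abs_mul, abs_of_pos (by positivity : 0 < 16 / 9 * (2 * η * τ))]
    gcongr
  have a2 : |(56 / 9 - 2 * η) * (Z2' - Z2)| ≤ 56 / 9 * (δ * η / 1000 * (2 * η * τ - η * τ)) := by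
    rw [abs_mul, abs_of_pos (by linarith : 0 < 56 / 9 - 2 * η)]
    gcongr
    linarith
  have a3 : |η * Z2| ≤ η * (δ * τ / 9) := by
    rw [abs_mul, abs_of_pos hη]
    gcongr
  have h5 : 0 < δ * η * τ := by positivity
  have h6 : η * (δ * η * τ) ≤ 1 / 1000 * (δ * η * τ) := by gcongr
  obtain ⟨b1, b2⟩ := abs_le.1 a1
  obtain ⟨b1', b2'⟩ := abs_le.1 a1'
  obtain ⟨b3, b4⟩ := abs_le.1 a2
  obtain ⟨b5, b6⟩ := abs_le.1 h4
  obtain ⟨b5', b6'⟩ := abs_le.1 h4'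
  obtain ⟨b7, b8⟩ := abs_le.1 a3
  rw [abs_lt]
  constructor <;> nlinarith

end real

variable {κ : Cst}

theorem n_trans' (hκ : κ.Adm) : ∀ᶠ r in fam κ, ∀ t ∈ Ico 0 r.t₁, ∀ x,
    Ex (κ.ws r.s) r.S t x → ∀ j, |x j| < 1 := by
  have hη := hκ.η
  have hδ := hκ.δ
  have hη' := hκ.eta_le
  have hε : 0 < κ.δ * κ.η / 1000 := by positivity
  filter_upwards [n_dom hκ, n_lev hκ, bas_mono hκ, f_h hκ, n_Z3 hκ hε, n_Z2 hκ hε, n_lerr hκ hε,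
    ev_s κ one_pos] with r hd hl hm hh hZ3 hZ2 hE hs1 t ht x hx
  have ht' : t ∈ r.I := Ico_subset_Icc_self ht
  have hτ := r.tau_pos ht'
  have hητ : 0 < κ.η * r.tau t := mul_pos hη hτ
  have hy₁ : r.s ^ 3 ≤ 1 := pow_le_one₀ r.hs.le hs1
  choose! Ya Yb hL using fun s (hs : s ∈ r.I) => r.lvp hκ hs
  obtain ⟨ya, hya, yb, hyb, ea, eb, rfl⟩ := hx
  have L := hL t ht'
  obtain rfl : ya = Ya t := (hm t ht').1.injOn hya L.ma (ea.trans L.ra.symm)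
  obtain rfl : yb = Yb t := (hm t ht').1.injOn hyb L.mb (eb.trans L.rb.symm)
  have la : κ.η * r.tau t ≤ r.S.rho t (Ya t) := L.ra.ge
  have lb : κ.η * r.tau t ≤ r.S.rho t (Yb t) := by rw [L.rb]; linarith
  have da := hd t ht' _ (hl t ht' _ L.ma la)
  have db := hd t ht' _ (hl t ht' _ L.mb lb)
  have ka : 0 < r.S.kk t (Ya t) := by linarith [da.k.1]
  have kb : 0 < r.S.kk t (Yb t) := by linarith [db.k.1]
  obtain ⟨z1, z2⟩ := hZ2 t ht' _ L.ma L.ra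
  obtain ⟨hab, z3⟩ := z2 _ L.mb L.rb
  have hb1 : Yb t < r.s ^ 3 := by
    refine lt_of_le_of_ne L.mb.2 fun e => ?_
    have := (hh t ht').2
    rw [← e, L.rb] at this
    exact lt_irrefl _ this
  have ma : Ya t ∈ Ioo 0 (r.s ^ 3) := ⟨da.mem.1, hab.trans hb1⟩
  have mb : Yb t ∈ Ioo 0 (r.s ^ 3) := ⟨db.mem.1, hb1⟩
  have hla : HasDerivAt (fun s => κ.η * r.tau s) (-κ.η) t :=
    (((hasDerivAt_id' t).const_sub r.S.τ₀).const_mul κ.η).congr_deriv (by ring)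
  have hlb : HasDerivAt (fun s => 2 * κ.η * r.tau s) (-(2 * κ.η)) t :=
    (((hasDerivAt_id' t).const_sub r.S.τ₀).const_mul (2 * κ.η)).congr_deriv (by ring)
  have mon : ∀ s ∈ Icc 0 r.t₁, StrictMonoOn (r.S.rho s) (Icc 0 (r.s ^ 3)) := fun s hs => (hm s hs).1
  have d0 := r.sol.level_comp ht hy₁ ma ka mon (fun s hs => ⟨(hL s hs).ma, (hL s hs).ra⟩) hla
    (r.sol.sm_Z0 ht' da.mem)
  have d1 := r.sol.level_comp ht hy₁ ma ka mon (fun s hs => ⟨(hL s hs).ma, (hL s hs).ra⟩) hla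
    (r.sol.sm_Z1 ht' da.mem ka.ne')
  have d2 := r.sol.level_comp ht hy₁ mb kb mon (fun s hs => ⟨(hL s hs).mb, (hL s hs).rb⟩) hlb
    (r.sol.sm_Z1 ht' db.mem kb.ne')
  rw [r.sol.hT_Z0 ht' da.mem ka, r.sol.Dr_Z0 ht' da.mem ka.ne', L.ra] at d0
  rw [r.sol.hT_Z1 ht' da.mem ka, L.ra] at d1
  rw [r.sol.hT_Z1 ht' db.mem kb, L.rb] at d2
  have sub : ∀ s ∈ Icc t r.t₁, s ∈ r.I := fun s hs => ⟨ht.1.trans hs.1, hs.2⟩
  have q2 := tr_Z2 hη hη' hδ hτ L.x2 z3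
  obtain ⟨e1, e2⟩ := hE t ht' _ L.ma la (by rw [L.ra]; linarith)
  obtain ⟨-, e3⟩ := hE t ht' _ L.mb lb L.rb.le
  have w3 := hZ3 t ht' _ L.ma la
  have w3' := hZ3 t ht' _ L.mb lb
  have z4 := z1 _ ⟨hab.le, L.mb.2⟩
  rw [L.rb] at z4
  have x0 := exit_aux (p := 2) ht.2 d0 (fun s hs => (hL s (sub s hs)).x0) (by
    have := tr_0 hη hη' hδ hτ L.x1 q2 e1
    push_cast
    linarith)
  have x1 := exit_aux (p := 1) ht.2 d1 (fun s hs => (hL s (sub s hs)).x1) (by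
    have := tr_1 hη hη' hδ hτ q2 w3 e2
    push_cast
    exact this.trans_eq (by simp only [Rn.tau]; ring))
  have x2 := exit_aux (p := 1) ht.2 (d2.sub d1) (fun s hs => (hL s (sub s hs)).x2) (by
    have := tr_2 hη hη' hδ hτ q2 z4 w3 w3' e2 e3
    push_cast
    exact this.trans_eq (by simp only [Rn.tau]; ring))
  have p0 : 0 < κ.δ * (r.S.τ₀ - t) ^ 3 := by positivity
  have p1 : 0 < κ.δ / 2 * (r.S.τ₀ - t) ^ 2 := by positivity
  have p2 : 0 < κ.δ / 10 * κ.η * (r.S.τ₀ - t) ^ 2 := by positivity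
  intro j
  fin_cases j
  · show |r.S.Z0 t (Ya t) / (κ.δ * (r.S.τ₀ - t) ^ 3)| < 1
    rw [abs_div, abs_of_pos p0, div_lt_one p0]
    exact x0
  · show |r.S.Z1 t (Ya t) / (κ.δ / 2 * (r.S.τ₀ - t) ^ 2)| < 1
    rw [abs_div, abs_of_pos p1, div_lt_one p1]
    exact x1
  · show |(r.S.Z1 t (Yb t) - r.S.Z1 t (Ya t)) / (κ.δ / 10 * κ.η * (r.S.τ₀ - t) ^ 2)| < 1
    rw [abs_div, abs_of_pos p2, div_lt_one p2]
    exact x2

end Vale.Agent.P244
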