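import Vale.Agent.P244.N.Sy2

/-!
N1, third part: the error bounds in the form used by the barrier and by the exit directions.
Plan: `n_sym`, `n_dom`, `n_lev` and real inequalities.  With `ϱ³ = K²` (`rho_cube`), `σ ≤ τ + 2 ϱ`:
`w₁ σ² / ϱ³ = σ⁵ / K³ + σ³ / K²`, `σ⁵ ≤ 16 τ⁵ + 512 ϱ⁵`, `σ³ ≤ 4 τ³ + 32 ϱ³`, `ϱ² ≤ K` (square it,
`ϱ ≤ 1`) so `ϱ⁵ ≤ K³`; `τ⁵ ≤ τ⁴`; `τ³ / K² ≤ τ⁴ / K³ + 1` (cases `K ≤ τ`, `τ ≤ K`);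
`σ² ≤ 2 τ² + 8 ϱ²`.
`n_lerr`: there `σ ≤ 2 τ` (`eta_le`), `K ≥ τ²`, so `w₁ σ² ≤ 40 τ³`, `w₁ σ² / ϱ ≤ 40 τ² / η`; then
`ev_mul_tau` (`r.tau_le`).
-/

namespace Vale.Agent.P244

open scoped ContDiff Topology
open Set Filter Real

variable {κ : Cst}

theorem nerr_a {τ σ ϱ K : ℝ} (t0 : 0 < τ) (t1 : τ ≤ 1) (s0 : 0 < σ) (s1 : σ ≤ τ + 2 * ϱ)
    (r0 : 0 < ϱ) (r1 : ϱ ≤ 1) (k0 : 0 < K) (e : ϱ ^ 3 = K ^ 2) :
    (σ ^ 3 / K + σ) * σ ^ 2 / ϱ ^ 3 ≤ 270 * (τ ^ 4 / K ^ 3 + 1) := by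
  have a : σ ^ 5 + σ ^ 3 * K ≤ 270 * (τ ^ 4 + K ^ 3) := by
    have p4 := pow_pos t0 4
    have p3 := pow_pos k0 3
    rcases le_total τ ϱ with h | h
    · have b : ϱ ^ 2 ≤ K := (pow_le_pow_iff_left₀ (sq_nonneg ϱ) k0.le two_ne_zero).1 (by
        rw [← e, ← pow_mul]
        exact pow_le_pow_of_le_one r0.le r1 (by norm_num))
      have c : σ ≤ 3 * ϱ := by linarith
      have c5 := pow_le_pow_left₀ s0.le c 5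
      have c3 := mul_le_mul_of_nonneg_right (pow_le_pow_left₀ s0.le c 3) k0.le
      have d := mul_le_mul_of_nonneg_left b (sq_nonneg K)
      rw [mul_pow, e] at c3
      rw [mul_pow, show ϱ ^ 5 = ϱ ^ 3 * ϱ ^ 2 by ring, e] at c5
      linarith
    · have c : σ ≤ 3 * τ := by linarith
      have c5 := pow_le_pow_left₀ s0.le c 5
      have c3 := mul_le_mul_of_nonneg_right (pow_le_pow_left₀ s0.le c 3) k0.le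
      have d := mul_le_mul_of_nonneg_left t1 p4.le
      rcases le_total K τ with h' | h'
      · linarith [mul_le_mul_of_nonneg_left h' (pow_pos t0 3).le]
      · linarith [mul_le_mul_of_nonneg_right (mul_le_mul t1 (pow_le_pow_left₀ t0.le h' 2)
          (sq_nonneg τ) zero_le_one) k0.le]
  rw [e]
  calc _ = (σ ^ 5 + σ ^ 3 * K) / K ^ 3 := by field_simp
    _ ≤ 270 * (τ ^ 4 + K ^ 3) / K ^ 3 := by gcongr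
    _ = _ := by field_simp

theorem nerr_b {τ σ ϱ : ℝ} (s0 : 0 < σ) (s1 : σ ≤ τ + 2 * ϱ) (r0 : 0 < ϱ) :
    σ ^ 2 / ϱ ^ 2 + 1 ≤ 270 * (τ ^ 2 / ϱ ^ 2 + 1) := by
  have a := pow_le_pow_left₀ s0.le s1 2
  calc _ = (σ ^ 2 + ϱ ^ 2) / ϱ ^ 2 := by field_simp
    _ ≤ 270 * (τ ^ 2 + ϱ ^ 2) / ϱ ^ 2 := div_le_div_of_nonneg_right
      (by nlinarith [sq_nonneg (τ - 2 * ϱ), sq_nonneg τ, sq_nonneg ϱ]) (sq_nonneg ϱ)
    _ = _ := by field_simp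

theorem nerr_c {τ σ K : ℝ} (t0 : 0 < τ) (s0 : 0 < σ) (s1 : σ ≤ 2 * τ) (k : τ ^ 2 ≤ K) :
    (σ ^ 3 / K + σ) * σ ^ 2 ≤ 40 * τ ^ 3 :=
  calc _ ≤ ((2 * τ) ^ 3 / τ ^ 2 + 2 * τ) * (2 * τ) ^ 2 := by gcongr
    _ = _ := by
      field_simp
      ring

theorem n_err (hκ : κ.Adm) : ∃ C, 0 ≤ C ∧ ∀ᶠ r in fam κ, ∀ t ∈ r.I, ∀ y ∈ r.dom t,
    |r.S.Dr (r.S.Dr (r.S.Dr r.S.Err)) t y| ≤ C * (r.tau t ^ 4 / r.S.KK t y ^ 3 + 1) ∧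
    |r.S.Z3 t y| ≤ C * (r.tau t ^ 2 / r.S.rho t y ^ 2 + 1) := by
  obtain ⟨C, hC, H⟩ := n_sym hκ
  refine ⟨C * 270, by positivity, ?_⟩
  filter_upwards [H, n_dom hκ] with r h1 h2 t ht y hy
  obtain ⟨-, -, a3, a4⟩ := h1 t ht y hy
  have d := h2 t ht y hy
  have s0 : 0 < r.S.sg t y := r.S.sg_pos (by linarith [d.tau0])
  rw [mul_assoc, mul_assoc]
  exact ⟨a3.trans (mul_le_mul_of_nonneg_left (nerr_a d.tau0 (by linarith [d.tau1]) s0 d.sg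
      (r.S.rho_pos d.mem) d.r1 (r.S.KK_pos d.mem) (r.S.rho_cube (Ioo_subset_Icc_self d.mem))) hC),
    a4.trans (mul_le_mul_of_nonneg_left (nerr_b s0 d.sg (r.S.rho_pos d.mem)) hC)⟩

theorem n_lerr (hκ : κ.Adm) {ε : ℝ} (hε : 0 < ε) : ∀ᶠ r in fam κ, ∀ t ∈ r.I,
    ∀ y ∈ Icc 0 (r.s ^ 3), κ.η * r.tau t ≤ r.S.rho t y → r.S.rho t y ≤ 2 * κ.η * r.tau t →
      |r.S.Err t y| ≤ ε * r.tau t ^ 2 ∧ |r.S.Dr r.S.Err t y| ≤ ε * r.tau t := by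
  obtain ⟨C, hC, H⟩ := n_sym hκ
  have η0 := hκ.η
  filter_upwards [H, n_dom hκ, n_lev hκ, ev_mul_tau κ (fun _ => 40 * C) fun _ _ => hε,
    ev_mul_tau κ (fun _ => 40 * C / κ.η) fun _ _ => hε] with r h1 h2 h3 h4 h5 t ht y hy l1 l2
  obtain ⟨a1, a2, -⟩ := h1 t ht y (h3 t ht y hy l1)
  have d := h2 t ht y (h3 t ht y hy l1)
  have t0 := r.tau_pos ht
  have b : r.S.w1 t y * r.S.sg t y ^ 2 ≤ 40 * r.tau t ^ 3 :=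
    nerr_c t0 (r.S.sg_pos (by linarith [d.tau0]))
      (by linarith [d.sg, mul_le_mul_of_nonneg_right hκ.eta_le t0.le]) d.K
  have c := r.tau_le ht
  refine ⟨a1.trans ?_, a2.trans ?_⟩
  · calc _ ≤ C * (40 * r.tau t ^ 3) := by gcongr
      _ = 40 * C * r.tau t * r.tau t ^ 2 := by ring
      _ ≤ 40 * C * r.S.τ₀ * r.tau t ^ 2 := by gcongr
      _ ≤ _ := by gcongr
  · calc _ ≤ C * (40 * r.tau t ^ 3 / (κ.η * r.tau t)) := by gcongr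
      _ = 40 * C / κ.η * r.tau t * r.tau t := by field_simp
      _ ≤ 40 * C / κ.η * r.S.τ₀ * r.tau t := by gcongr
      _ ≤ _ := by gcongr

end Vale.Agent.P244
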