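import Vale.Agent.P244.N.BarM
import Vale.Agent.P244.N.Err

/-!
N2, last part: boundary values and the smallness of `Z₃` for `ϱ ≥ η τ`.
Plan `bar_bd` (`M₀ = max (data_Z3) (2 C)`, `C` from `n_err`).  `t = 0`: `K 0 y = y (1 - y) ≤ y`
(`data_H`, unfold `KK`), so `τ₀² ≤ y ≤ s³ ≤ 1/4`, `data_Z3`, and `M (s³ + τ₀) < e` eventually.
`y = s³`: `far_Z3` with `e / 4`, `data_Z3` at `y = s³` (`τ₀² ≤ s³`), and
`M τ₀⁴ ϱ(0, s³)^{-7/2} ≤ e / 4` by `ev_tau`/`ev_mul_tau` since `ϱ(0, s³) = (s³ (1 - s³))^{2/3}` depends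
only on `s`.  `K = τ²`: `ϱ³ = τ⁴`, so `τ⁴ ϱ^{-7/2} = ϱ / τ²` (`rho_m72`), `τ² / ϱ² = ϱ / τ²` and
`1 ≤ ϱ / τ²` (cube, `τ ≤ 1`).
`n_Z3`: `bar_mp` with `e = ε / 2`, `M = max M₀ C`, `G = 8 M + 2 C + 2`; `n_lev`; at `η τ ≤ ϱ`:
`τ⁴ ϱ^{-7/2} ≤ τ⁴ (η τ)^{-7/2} = η^{-7/2} √τ` (`rpow_le_rpow_of_nonpos`), `√τ ≤ √τ₀`, and
`(M η^{-7/2} + G) √τ₀ ≤ ε / 2` for small `τ₀` (`ev_tau`, `sqrt_le_left`/`Real.sqrt_le_iff`).
-/

namespace Vale.Agent.P244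

open scoped ContDiff Topology
open Set Filter Real

variable {κ : Cst}

theorem bar_K0 {δ : ℝ} {S : St} {c : Fin 3 → ℝ} (h : DOk δ S c) {y : ℝ} (hy : y ∈ Icc (0 : ℝ) 1) :
    S.KK 0 y = y * (1 - y) := by
  unfold St.KK
  rw [(data_H h hy).2.2, exp_zero, mul_one]

theorem bar_cone {τ ρ C Z : ℝ} (hτ : 0 < τ) (hτ1 : τ ≤ 1) (hρ : 0 < ρ) (h3 : ρ ^ 3 = (τ ^ 2) ^ 2)
    (hC : 0 ≤ C) (hZ : Z ≤ C * (τ ^ 2 / ρ ^ 2 + 1)) : Z ≤ 2 * C * τ ^ 4 * (ρ / (τ ^ 2) ^ 3) := by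
  have h1 : τ ^ 2 / ρ ^ 2 = ρ / τ ^ 2 := by
    rw [div_eq_div_iff (by positivity) (by positivity)]
    linear_combination -h3
  have h2 : τ ^ 2 ≤ ρ := by
    refine le_of_pow_le_pow_left₀ (n := 3) (by norm_num) hρ.le ?_
    rw [h3]
    exact pow_le_pow_of_le_one (by positivity) (pow_le_one₀ hτ.le hτ1) (by norm_num)
  have h4 : 1 ≤ ρ / τ ^ 2 := (one_le_div (by positivity)).2 h2
  have h5 : 2 * C * τ ^ 4 * (ρ / (τ ^ 2) ^ 3) = 2 * C * (ρ / τ ^ 2) := by field_simp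
  rw [h5]
  rw [h1] at hZ
  nlinarith [mul_le_mul_of_nonneg_left h4 hC]

theorem bar_lev {η τ ρ : ℝ} (hη : 0 < η) (hτ : 0 < τ) (h : η * τ ≤ ρ) :
    τ ^ 4 * ρ ^ (-(7 / 2) : ℝ) ≤ η ^ (-(7 / 2) : ℝ) * √τ := by
  have h1 : ρ ^ (-(7 / 2) : ℝ) ≤ (η * τ) ^ (-(7 / 2) : ℝ) :=
    rpow_le_rpow_of_nonpos (mul_pos hη hτ) h (by norm_num)
  have h2 : τ ^ 4 * τ ^ (-(7 / 2) : ℝ) = √τ := by
    rw [← rpow_natCast, ← rpow_add hτ, sqrt_eq_rpow]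
    norm_num
  rw [mul_rpow hη.le hτ.le] at h1
  rw [← h2, mul_left_comm]
  exact mul_le_mul_of_nonneg_left h1 (by positivity)

theorem bar_bd (hκ : κ.Adm) : ∃ M₀, 0 ≤ M₀ ∧ ∀ e > 0, ∀ᶠ r in fam κ, ∀ t ∈ r.I, ∀ y ∈ r.dom t,
    t = 0 ∨ y = r.s ^ 3 ∨ r.S.KK t y = r.tau t ^ 2 →
      |r.S.Z3 t y| < e + M₀ * r.tau t ^ 4 * r.S.rho t y ^ (-(7 / 2) : ℝ) := by
  obtain ⟨Md, hMd⟩ := data_Z3
  obtain ⟨C, hC, hE⟩ := n_err hκ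
  have hM := abs_nonneg Md
  refine ⟨|Md| + 2 * C, by positivity, fun e he => ?_⟩
  filter_upwards [ev_dok hκ, n_dom hκ, hE, far_Z3 hκ (ε := e / 4) (by positivity),
    ev_s κ (ε := 1 / 2) (by norm_num), ev_mul_s κ |Md| (ε := e / 8) (by positivity),
    ev_mul_tau κ (fun _ => |Md|) (ε := fun _ => e / 8) fun _ _ => by positivity,
    ev_tau κ (ε := fun s => s ^ 3) fun s hs => by positivity,
    ev_mul_tau κ (fun s => |Md| * ((s ^ 3 * (1 - s ^ 3)) ^ (2 / 3 : ℝ)) ^ (-(7 / 2) : ℝ))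
      (ε := fun _ => e / 4) fun _ _ => by positivity] with r hd hD hEr hF h1 h2 h3 h4 h5 t ht y hy hc
  have hs := r.hs
  have hs3 : r.s ^ 3 ≤ 1 / 8 := (pow_le_pow_left₀ hs.le h1 3).trans (by norm_num)
  have hs1 : r.s ^ 3 ≤ r.s := pow_le_of_le_one hs.le (by linarith) (by norm_num)
  have hτ := hd.τ0
  have hτ1 : r.S.τ₀ ≤ 1 := hd.τ1.trans (by norm_num)
  have D := hD t ht y hy
  have hρ := r.S.rho_pos (t := t) D.mem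
  have hp : 0 ≤ r.tau t ^ 4 * r.S.rho t y ^ (-(7 / 2) : ℝ) := by positivity
  have key : ∀ z ∈ Icc (r.S.τ₀ ^ 2) (r.s ^ 3), |r.S.Z3 0 z| ≤
      |Md| * (r.S.τ₀ ^ 4 * r.S.rho 0 z ^ (-(7 / 2) : ℝ)) + e / 4 := by
    intro z hz
    have hz0 : 0 ≤ z := (sq_nonneg _).trans hz.1
    have a1 := hMd _ _ _ hd z ⟨hz.1, hz.2.trans (by linarith)⟩
    have a2 : 0 ≤ r.S.τ₀ ^ 4 * r.S.rho 0 z ^ (-(7 / 2) : ℝ) :=
      mul_nonneg (by positivity) (rpow_nonneg (r.S.rho_nonneg ⟨hz0, by linarith [hz.2]⟩) _)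
    have a3 := mul_le_mul_of_nonneg_right (le_abs_self Md) (add_nonneg (add_nonneg a2 hz0) hτ.le)
    have a4 := mul_le_mul_of_nonneg_left (hz.2.trans hs1) hM
    linarith
  rw [mul_assoc, add_mul]
  have hq := mul_nonneg hM hp
  have hq' := mul_nonneg hC hp
  rcases hc with rfl | rfl | hc
  · have a1 := hy.2
    rw [bar_K0 hd (Ioo_subset_Icc_self D.mem)] at a1
    simp only [Rn.tau, sub_zero] at a1 hq' ⊢
    have a2 := key y ⟨a1.trans (by nlinarith [sq_nonneg y]), hy.1.2⟩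
    linarith
  · have a1 := key (r.s ^ 3) ⟨(pow_le_of_le_one hτ.le hτ1 (by norm_num)).trans h4, le_rfl⟩
    have a2 : r.S.rho 0 (r.s ^ 3) = (r.s ^ 3 * (1 - r.s ^ 3)) ^ (2 / 3 : ℝ) := by
      unfold St.rho
      rw [bar_K0 hd (Ioo_subset_Icc_self D.mem)]
    have a3 : 0 ≤ r.S.rho 0 (r.s ^ 3) ^ (-(7 / 2) : ℝ) :=
      rpow_nonneg (r.S.rho_nonneg (Ioo_subset_Icc_self D.mem)) _
    rw [← a2] at h5
    have a4 : r.S.τ₀ ^ 4 ≤ r.S.τ₀ := pow_le_of_le_one hτ.le hτ1 (by norm_num)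
    have a5 := mul_le_mul_of_nonneg_left a4 (mul_nonneg hM a3)
    have a6 := hF t ht
    have a7 := abs_sub_abs_le_abs_sub (r.S.Z3 t (r.s ^ 3)) (r.S.Z3 0 (r.s ^ 3))
    linarith
  · have a1 := r.S.rho_cube (t := t) (Ioo_subset_Icc_self D.mem)
    rw [hc] at a1
    have a2 := bar_cone (r.tau_pos ht) ((r.tau_le ht).trans hτ1) hρ a1 hC (hEr t ht y hy).2
    rw [← hc, ← r.S.rho_m72 D.mem] at a2
    linarith

theorem n_Z3 (hκ : κ.Adm) {ε : ℝ} (hε : 0 < ε) : ∀ᶠ r in fam κ, ∀ t ∈ r.I,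
    ∀ y ∈ Icc 0 (r.s ^ 3), κ.η * r.tau t ≤ r.S.rho t y → |r.S.Z3 t y| ≤ ε := by
  obtain ⟨M₀, hM₀, hB⟩ := bar_bd hκ
  obtain ⟨C, hC, hE⟩ := n_err hκ
  have hη : 0 < κ.η ^ (-(7 / 2) : ℝ) := rpow_pos_of_pos hκ.η _
  obtain ⟨G, hG⟩ : ∃ G, G = 8 * (M₀ + C) + 2 * C + 2 := ⟨_, rfl⟩
  have hG0 : 0 < G := by rw [hG]; positivity
  obtain ⟨L, hL⟩ : ∃ L, L = (M₀ + C) * κ.η ^ (-(7 / 2) : ℝ) + G := ⟨_, rfl⟩
  have hL0 : 0 < L := by rw [hL]; positivity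
  filter_upwards [n_dom hκ, hE, hB (ε / 2) (half_pos hε), n_lev hκ,
    ev_s κ (ε := 1 / 2) (by norm_num),
    ev_tau κ (ε := fun _ => (ε / 2 / L) ^ 2) fun _ _ => by positivity] with r hD hEr hb hl h1 h2
    t ht y hy hc
  have hs3 : r.s ^ 3 ≤ 1 / 8 := (pow_le_pow_left₀ r.hs.le h1 3).trans (by norm_num)
  have hmp := r.sol.bar_mp (y₁ := r.s ^ 3) (e := ε / 2) (M := M₀ + C) (G := G) (by linarith) hC
    (by linarith) hG.ge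
    (fun t ht y hy hK => ⟨by linarith [(hD t ht y ⟨hy, hK⟩).k.1], (hEr t ht y ⟨hy, hK⟩).1⟩)
    (fun t ht y hy hK hc => by
      have a1 := hb t ht y ⟨hy, hK⟩ hc
      have a2 := r.S.rho_pos (t := t) (hD t ht y ⟨hy, hK⟩).mem
      have a3 : 0 ≤ C * (r.S.τ₀ - t) ^ 4 * r.S.rho t y ^ (-(7 / 2) : ℝ) := by positivity
      have a4 : 0 ≤ G * (√r.S.τ₀ - √(r.S.τ₀ - t)) :=
        mul_nonneg hG0.le (sub_nonneg.2 (sqrt_le_sqrt (r.tau_le ht)))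
      unfold St.bar
      simp only [Rn.tau] at a1
      linarith)
    t ht y hy (hl t ht y hy hc).2
  have a1 := (bar_lev hκ.η (r.tau_pos ht) hc).trans
    (mul_le_mul_of_nonneg_left (sqrt_le_sqrt (r.tau_le ht)) hη.le)
  have a2 := mul_le_mul_of_nonneg_left a1 (add_nonneg hM₀ hC)
  have a3 : √r.S.τ₀ ≤ ε / 2 / L := sqrt_le_iff.2 ⟨by positivity, h2⟩
  rw [le_div_iff₀ hL0, hL] at a3
  have a4 := mul_nonneg hG0.le (sqrt_nonneg (r.S.τ₀ - t))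
  unfold St.bar at hmp
  simp only [Rn.tau] at a2
  linarith

end Vale.Agent.P244
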