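import Vale.Agent.P244.N.Touch

/-!
N2, second part: the barrier `U = e + M τ⁴ ϱ^{-7/2} + G (√τ₀ - √τ)`.
Plan: `rho_m92`: `ϱ = K^{2/3}`, `rpow_mul`, `rpow_neg`, `rpow_natCast`; `rho_m72`: `rpow_add_one`.
`ll_bar_eq`: `D U = M τ⁴ (-7/2) ϱ^{-9/2}` at every point of `J = {z ∈ Ioo 0 1, 0 < k}` (`Dr_comp`
with `φ s x = e + M (τ₀ - s)⁴ x^{-7/2} + G (..)`, `Real.hasDerivAt_rpow_const`), then `dX_congr_on
(h.ro_kk ht)` and `Dr_comp` again give `D² U = M τ⁴ (63/4) ϱ^{-11/2}`.  `∂̂_t` is additive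
(`dT_add`, `dX_add`, unfold `St.hT`, `St.Dr`), and `hT_comp` applies to `(M τ⁴) ϱ^{-7/2}` and to
`(e + G (√τ₀ - √τ)) * 1`.  `ll_bar`: if `ϱ ≤ τ` then `4 τ³ ϱ / K³ ≤ 4 τ⁴ / K³`; if `τ ≤ ϱ` then
`τ³ ϱ / K³ ≤ 1 / √τ` (square: `τ⁷ ϱ² ≤ ϱ⁹ = K⁶`).
-/

namespace Vale.Agent.P244

open scoped ContDiff Topology
open Set Filter Real

/-- The barrier for `Z₃`. -/
noncomputable def St.bar (S : St) (e M G : ℝ) : Fn := fun t y =>
  e + M * (S.τ₀ - t) ^ 4 * S.rho t y ^ (-(7 / 2) : ℝ) + G * (√S.τ₀ - √(S.τ₀ - t))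

theorem St.rho_m92 (S : St) {t y : ℝ} (hy : y ∈ Ioo (0 : ℝ) 1) :
    S.rho t y ^ (-(9 / 2) : ℝ) = 1 / S.KK t y ^ 3 := by
  have hK := (S.KK_pos (t := t) hy).le
  rw [St.rho, ← rpow_mul hK, show (2 / 3 : ℝ) * -(9 / 2) = -((3 : ℕ) : ℝ) by norm_num,
    rpow_neg hK, rpow_natCast, one_div]

theorem St.rho_m72 (S : St) {t y : ℝ} (hy : y ∈ Ioo (0 : ℝ) 1) :
    S.rho t y ^ (-(7 / 2) : ℝ) = S.rho t y / S.KK t y ^ 3 := by
  rw [show (-(7 / 2) : ℝ) = -(9 / 2) + 1 by norm_num, rpow_add_one (S.rho_pos hy).ne',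
    S.rho_m92 hy]
  ring

namespace St.Sol

variable {S : St} {t₁ t y : ℝ} (h : S.Sol t₁) (ht : t ∈ Icc 0 t₁) (hy : y ∈ Ioo (0 : ℝ) 1)
include h ht hy

theorem sm_bar (e M G : ℝ) : SmAt (Icc 0 t₁) (S.bar e M G) t y := by
  have hτ : 0 < S.τ₀ - t := sub_pos.2 (ht.2.trans_lt h.lt)
  have st : SmAt (Icc 0 t₁) (fun s _ => S.τ₀ - s) t y := (smAt_const _).sub smAt_t
  have sq : SmAt (Icc 0 t₁) (fun s _ => √(S.τ₀ - s)) t y := ContDiffWithinAt.sqrt st hτ.ne'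
  exact ((smAt_const e).add (((smAt_const M).mul (st.pow 4)).mul
    ((h.sm_rho ht hy).rpow (S.rho_pos hy).ne' _))).add
    ((smAt_const G).mul ((smAt_const _).sub sq))

theorem barl_Dr (hk : 0 < S.kk t y) (e M G : ℝ) : S.Dr (S.bar e M G) t y =
    M * (S.τ₀ - t) ^ 4 * (-(7 / 2) * S.rho t y ^ (-(7 / 2) - 1 : ℝ)) :=
  h.Dr_comp ht hy hk.ne' (φ := fun s x => e + M * (S.τ₀ - s) ^ 4 * x ^ (-(7 / 2) : ℝ) +
    G * (√S.τ₀ - √(S.τ₀ - s)))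
    ((((hasDerivAt_rpow_const (Or.inl (S.rho_pos hy).ne')).const_mul _).const_add e).add_const _)

theorem barl_Dr2 (hk : 0 < S.kk t y) (e M G : ℝ) : S.Dr (S.Dr (S.bar e M G)) t y =
    M * (S.τ₀ - t) ^ 4 * (-(7 / 2) * ((-(7 / 2) - 1) * S.rho t y ^ (-(7 / 2) - 1 - 1 : ℝ))) := by
  rw [h.id3_Dr_congr ht hy hk (v := fun s z => M * (S.τ₀ - s) ^ 4 *
    (-(7 / 2) * S.rho s z ^ (-(7 / 2) - 1 : ℝ))) fun z hz hk => h.barl_Dr ht hz hk e M G]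
  exact h.Dr_comp ht hy hk.ne'
    (φ := fun s x => M * (S.τ₀ - s) ^ 4 * (-(7 / 2) * x ^ (-(7 / 2) - 1 : ℝ)))
    (((hasDerivAt_rpow_const (Or.inl (S.rho_pos hy).ne')).const_mul _).const_mul _)

theorem barl_dT (e M G : ℝ) : dT (Icc 0 t₁) (S.bar e M G) t y =
    -4 * M * (S.τ₀ - t) ^ 3 * S.rho t y ^ (-(7 / 2) : ℝ) + M * (S.τ₀ - t) ^ 4 *
      (dT (Icc 0 t₁) S.rho t y * -(7 / 2) * S.rho t y ^ (-(7 / 2) - 1 : ℝ)) +
      G / (2 * √(S.τ₀ - t)) := by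
  have hτ0 : 0 < S.τ₀ - t := sub_pos.2 (ht.2.trans_lt h.lt)
  have hτ : HasDerivWithinAt (fun s => S.τ₀ - s) (-1) (Icc 0 t₁) t :=
    ((hasDerivAt_id t).const_sub S.τ₀).hasDerivWithinAt
  have hr := ((h.sm_rho ht hy).hasT (Ioo_subset_Icc_self hy)).rpow_const (p := -(7 / 2))
    (Or.inl (S.rho_pos hy).ne')
  refine dT_eq h.ti ht ((((((hτ.pow 4).const_mul M).mul hr).const_add e).add
    (((hτ.sqrt hτ0.ne').const_sub √S.τ₀).const_mul G)).congr_deriv ?_)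
  simp only [Pi.pow_apply]
  push_cast
  ring

theorem ll_bar_eq (hk : 0 < S.kk t y) (e M G : ℝ) : S.LL (Icc 0 t₁) (S.bar e M G) t y =
    -4 * M * (S.τ₀ - t) ^ 3 * (S.rho t y / S.KK t y ^ 3) + G / (2 * √(S.τ₀ - t)) +
      56 / 9 * M * (S.τ₀ - t) ^ 4 / S.KK t y ^ 3 := by
  have hr := (S.rho_pos (t := t) hy).ne'
  have e1 : S.rho t y ^ (-(7 / 2) - 1 : ℝ) = 1 / S.KK t y ^ 3 := by
    rw [← S.rho_m92 hy]
    norm_num
  rw [St.LL, St.hT, h.barl_dT ht hy, h.barl_Dr2 ht hy hk, h.barl_Dr ht hy hk,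
    rpow_sub_one hr (-(7 / 2) - 1), e1, S.rho_m72 hy]
  field_simp
  ring

theorem ll_bar (hk : 0 < S.kk t y) (e : ℝ) {M G : ℝ} (hM : 0 ≤ M) :
    2 * M * ((S.τ₀ - t) ^ 4 / S.KK t y ^ 3) + (G / 2 - 4 * M) / √(S.τ₀ - t) ≤
      S.LL (Icc 0 t₁) (S.bar e M G) t y := by
  rw [h.ll_bar_eq ht hy hk]
  have hτ : 0 < S.τ₀ - t := sub_pos.2 (ht.2.trans_lt h.lt)
  have hr := S.rho_pos (t := t) hy
  have hK := S.KK_pos (t := t) hy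
  have hc := S.rho_cube (t := t) (Ioo_subset_Icc_self hy)
  generalize S.τ₀ - t = τ at *
  generalize S.rho t y = r at *
  generalize S.KK t y = K at *
  have hs := sqrt_pos.2 hτ
  have key : τ ^ 3 * (r / K ^ 3) ≤ τ ^ 4 / K ^ 3 + 1 / √τ := by
    rcases le_total r τ with h1 | h1
    · have h2 : τ ^ 3 * (r / K ^ 3) ≤ τ ^ 4 / K ^ 3 := by
        rw [← mul_div_assoc, pow_succ τ 3]
        gcongr
      have h3 : 0 ≤ 1 / √τ := by positivity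
      linarith
    · have h2 : τ ^ 3 * (r / K ^ 3) ≤ 1 / √τ := by
        rw [← mul_div_assoc, div_le_div_iff₀ (by positivity) hs, one_mul,
          ← pow_le_pow_iff_left₀ (by positivity) (by positivity) two_ne_zero, mul_pow,
          sq_sqrt hτ.le]
        calc (τ ^ 3 * r) ^ 2 * τ ≤ (r ^ 3 * r) ^ 2 * r := by gcongr
          _ = (r ^ 3) ^ 3 := by ring
          _ = _ := by rw [hc]; ring
      have h3 : 0 ≤ τ ^ 4 / K ^ 3 := by positivity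
      linarith
  have k1 := mul_le_mul_of_nonneg_left key hM
  have k2 : 0 ≤ M * (τ ^ 4 / K ^ 3) := by positivity
  have e1 : (G / 2 - 4 * M) / √τ = G / (2 * √τ) - 4 * (M * (1 / √τ)) := by field_simp
  have e2 : 56 / 9 * M * τ ^ 4 / K ^ 3 = 56 / 9 * (M * (τ ^ 4 / K ^ 3)) := by ring
  rw [e1, e2]
  linarith

end St.Sol

end Vale.Agent.P244
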