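import Vale.Agent.P244.N.BarL

/-!
N2, third part: the maximum principle for `Z₃` on `Ω = {t ∈ I, 0 ≤ y ≤ y₁, τ² ≤ K}`.
Plan: `Ω` is a closed subset of the compact rectangle (`sm_KK.cont`,
`ContinuousOn.preimage_isClosed_of_isClosed` or `IsCompact.inter_right`/`isClosed_le` on the
subtype); its points have `0 < y` (`K > 0`) and `y < 1`.  Apply `mp_first` with `ι = Bool`,
`F b = (±1) * Z₃ - U` (continuity on `Ω` from `sm_Z3`, `sm_bar`, `ContDiffWithinAt.continuousWithinAt`,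
`.mono`).  The touching point is not a boundary point (`hb`), so `0 < t`, `y < y₁`, `τ² < K`, and `Ω` is
a neighbourhood within the rectangle (continuity of `K - τ²`).  `ll_touch`, `ll_Z3`, `ll_bar`:
`2 M τ⁴ / K³ + (G / 2 - 4 M) / √τ ≤ C (τ⁴ / K³ + 1)`, impossible as `√τ ≤ 1` (`h.le`).
-/

namespace Vale.Agent.P244

open scoped ContDiff Topology
open Set Filter Real

theorem St.Sol.bar_mp {S : St} {t₁ y₁ e M G C : ℝ} (h : S.Sol t₁) (hy : y₁ < 1) (hC : 0 ≤ C)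
    (hM : C ≤ M) (hG : 8 * M + 2 * C + 2 ≤ G)
    (hk : ∀ t ∈ Icc 0 t₁, ∀ y ∈ Icc 0 y₁, (S.τ₀ - t) ^ 2 ≤ S.KK t y → 0 < S.kk t y ∧
      |S.Dr (S.Dr (S.Dr S.Err)) t y| ≤ C * ((S.τ₀ - t) ^ 4 / S.KK t y ^ 3 + 1))
    (hb : ∀ t ∈ Icc 0 t₁, ∀ y ∈ Icc 0 y₁, (S.τ₀ - t) ^ 2 ≤ S.KK t y →
      t = 0 ∨ y = y₁ ∨ S.KK t y = (S.τ₀ - t) ^ 2 → |S.Z3 t y| < S.bar e M G t y) :
    ∀ t ∈ Icc 0 t₁, ∀ y ∈ Icc 0 y₁, (S.τ₀ - t) ^ 2 ≤ S.KK t y → |S.Z3 t y| < S.bar e M G t y := by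
  by_contra hn
  push Not at hn
  obtain ⟨t0, ht0, y0, hy0, hK0, hZ0⟩ := hn
  set R : Set (ℝ × ℝ) := Icc 0 t₁ ×ˢ Icc 0 1 with hR
  have cK : ContinuousOn (fun p : ℝ × ℝ => S.KK p.1 p.2 - (S.τ₀ - p.1) ^ 2) R :=
    (ContDiffOn.continuousOn h.sm_KK).sub (by fun_prop)
  set Ω : Set (ℝ × ℝ) := (Icc 0 t₁ ×ˢ Icc 0 y₁) ∩
    (fun p : ℝ × ℝ => S.KK p.1 p.2 - (S.τ₀ - p.1) ^ 2) ⁻¹' Ici 0 with hΩ
  have hsub : Icc 0 t₁ ×ˢ Icc 0 y₁ ⊆ R := prod_mono subset_rfl (Icc_subset_Icc le_rfl hy.le)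
  have hc : IsCompact Ω := (isCompact_Icc.prod isCompact_Icc).of_isClosed_subset
    ((cK.mono hsub).preimage_isClosed_of_isClosed (isClosed_Icc.prod isClosed_Icc) isClosed_Ici)
    inter_subset_left
  have hm : ∀ p ∈ Ω, p.1 ∈ Icc 0 t₁ ∧ p.2 ∈ Icc 0 y₁ ∧ (S.τ₀ - p.1) ^ 2 ≤ S.KK p.1 p.2 ∧
      p.2 ∈ Ioo (0 : ℝ) 1 := by
    intro p hp
    have h1 : (S.τ₀ - p.1) ^ 2 ≤ S.KK p.1 p.2 := sub_nonneg.1 hp.2
    refine ⟨hp.1.1, hp.1.2, h1, lt_of_le_of_ne hp.1.2.1 fun e0 => ?_, hp.1.2.2.trans_lt hy⟩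
    have h2 : 0 < S.τ₀ - p.1 := by linarith [h.lt, hp.1.1.2]
    have h3 : S.KK p.1 p.2 = 0 := by simp [St.KK, ← e0]
    nlinarith
  have hs : ∀ p ∈ Ω, SmAt (Icc 0 t₁) S.Z3 p.1 p.2 ∧ SmAt (Icc 0 t₁) (S.bar e M G) p.1 p.2 := by
    intro p hp
    obtain ⟨a1, a2, a3, a4⟩ := hm p hp
    exact ⟨h.sm_Z3 a1 a4 (hk _ a1 _ a2 a3).1, h.sm_bar a1 a4 e M G⟩
  obtain ⟨p, hp, i, g0, g1, g2⟩ := mp_first (ι := Bool) hc
    (F := fun b s z => (if b then 1 else -1) * S.Z3 s z - S.bar e M G s z)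
    (fun b p hp => (((smAt_const _).mul (hs p hp).1).sub (hs p hp).2).continuousWithinAt.mono
      (inter_subset_left.trans hsub))
    ⟨(t0, y0), ⟨⟨ht0, hy0⟩, sub_nonneg.2 hK0⟩, by
      rcases le_abs.1 hZ0 with k | k
      · exact ⟨true, by simpa using k⟩
      · exact ⟨false, by simpa using k⟩⟩
  obtain ⟨a1, a2, a3, a4⟩ := hm p hp
  obtain ⟨k1, k2⟩ := hk _ a1 _ a2 a3
  have hci : ∀ x : ℝ, (if i then 1 else -1) * x ≤ |x| := fun x => by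
    cases i
    · simpa using neg_le_abs x
    · simpa using le_abs_self x
  have hnb : ¬ (p.1 = 0 ∨ p.2 = y₁ ∨ S.KK p.1 p.2 = (S.τ₀ - p.1) ^ 2) := fun k => by
    have := hb _ a1 _ a2 a3 k
    have := hci (S.Z3 p.1 p.2)
    linarith
  push Not at hnb
  obtain ⟨n1, n2, n3⟩ := hnb
  have hN : Ω ∈ 𝓝[R] (p.1, p.2) := by
    have b1 : ∀ᶠ q in 𝓝[R] p, 0 < S.KK q.1 q.2 - (S.τ₀ - q.1) ^ 2 :=
      (cK p (hsub hp.1)).eventually (lt_mem_nhds (sub_pos.2 (lt_of_le_of_ne a3 n3.symm)))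
    have b2 : ∀ᶠ q in 𝓝[R] p, q.2 < y₁ := mem_nhdsWithin_of_mem_nhds
      (continuous_snd.continuousAt.eventually (gt_mem_nhds (lt_of_le_of_ne a2.2 n2)))
    filter_upwards [b1, b2, self_mem_nhdsWithin] with q q1 q2 q3
    exact ⟨⟨q3.1, q3.2.1, q2.le⟩, q1.le⟩
  have l1 := h.ll_touch (c := if i then 1 else -1) ⟨lt_of_le_of_ne a1.1 n1.symm, a1.2⟩ a4 k1
    (hs p hp).1 (hs p hp).2 hN g0 (fun q hq hl => g1 q hq hl i) (fun q hq he => g2 q hq he i)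
  rw [h.ll_Z3 a1 a4 k1] at l1
  have l2 := h.ll_bar a1 a4 k1 e (G := G) (hC.trans hM)
  have l3 := hci (S.Dr (S.Dr (S.Dr S.Err)) p.1 p.2)
  have t1 : 0 < S.τ₀ - p.1 := by linarith [h.lt, a1.2]
  have t2 : √(S.τ₀ - p.1) ≤ 1 := sqrt_le_one.2 (by linarith [h.le, a1.1])
  have t3 : G / 2 - 4 * M ≤ (G / 2 - 4 * M) / √(S.τ₀ - p.1) :=
    le_div_self (by linarith) (sqrt_pos.2 t1) t2
  have t4 : 0 ≤ (S.τ₀ - p.1) ^ 4 / S.KK p.1 p.2 ^ 3 :=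
    div_nonneg (by positivity) (pow_pos (S.KK_pos a4) 3).le
  nlinarith [mul_nonneg (show 0 ≤ 2 * M - C by linarith) t4]

end Vale.Agent.P244
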