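import Vale.Agent.P244.A.Fin1

/-!
N0: the cone region `τ² ≤ K` and pointwise facts there.
Plan `n_dom`: `BasI` from `bas_I`; `K ≥ τ² > 0` forces `y ≠ 0` (unfold `KK`); `k ≥ 2 - θ / 100`.
`|1 - θ| h³ = |E| ≤ AE σ³ ≤ 4 AE (τ³ + h⁶)` (`EE_eq`, `sg_eq`, `TrI.E` of `r.tr`), `2 h³ ≥ θ h³ = K ≥ τ²`
(`KK_eq`), `h ≤ 2 s` (`TrI.h`), so `|1 - θ| ≤ 8 AE τ₀ + 32 AE s³ ≤ 1/10` (`ev_mul_s`, `ev_mul_tau`,
`s ≤ 1`).  The comparisons of `ϱ`, `h²`, `f²` follow by cubing: `ϱ³ = K² = θ² h⁶` (`rho_cube`),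
`f² = θ h²` (`f2_eq`), `pow_le_pow_left₀`, `le_of_pow_le_pow_left₀` or `abs_le_abs`/`nlinarith`.
`n_lev`: `K² = ϱ³ ≥ η³ τ³ ≥ τ⁴` when `τ₀ ≤ η³` (`ev_tau`).
`Rn.lvp`: unfold `Ex`, `exv` in `r.ex`, use the three components and `abs_div`, `div_le_one`.
-/

namespace Vale.Agent.P244

open scoped ContDiff Topology
open Set Filter Real

variable {κ : Cst}

/-- The cone region at time `t`. -/
def Rn.dom (r : Rn κ) (t : ℝ) : Set ℝ := {y | y ∈ Icc 0 (r.s ^ 3) ∧ r.tau t ^ 2 ≤ r.S.KK t y}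

/-- Pointwise facts in the cone region. -/
structure DomF (κ : Cst) (S : St) (t y : ℝ) : Prop where
  bas : BasI S t y
  mem : y ∈ Ioo (0 : ℝ) 1
  tau0 : 0 < S.τ₀ - t
  tau1 : S.τ₀ - t ≤ 1 / 100
  K : (S.τ₀ - t) ^ 2 ≤ S.KK t y
  k : 19 / 10 ≤ S.kk t y ∧ S.kk t y ≤ 21 / 10
  E : |S.EE t y| ≤ κ.AE * S.sg t y ^ 3
  th : |1 - S.th t y| ≤ 1 / 10
  h2 : S.hh t y ^ 2 ≤ 2 * S.rho t y
  rf : S.rho t y ≤ 11 / 10 * S.f2 t y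
  fr : S.f2 t y ≤ 2 * S.rho t y
  sg : S.sg t y ≤ S.τ₀ - t + 2 * S.rho t y
  r1 : S.rho t y ≤ 1

theorem dom_th {A τ h θ : ℝ} (A0 : 0 ≤ A) (τ0 : 0 < τ) (h0 : 0 < h) (h1 : h ≤ 1 / 5) (θ1 : θ ≤ 2)
    (hK : τ ^ 2 ≤ θ * h ^ 3) (E : |1 - θ| * h ^ 3 ≤ A * (τ + h ^ 2) ^ 3) (a1 : 8 * A * τ ≤ 1 / 20)
    (a2 : 4 * A * h ≤ 1 / 20) : |1 - θ| ≤ 1 / 10 := by
  have h3 := pow_pos h0 3
  have e1 : (τ + h ^ 2) ^ 3 ≤ 4 * (τ ^ 3 + (h ^ 2) ^ 3) := by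
    nlinarith [mul_nonneg (add_pos τ0 (pow_pos h0 2)).le (sq_nonneg (τ - h ^ 2))]
  have e2 : τ ^ 3 ≤ 2 * τ * h ^ 3 := by
    nlinarith [mul_le_mul_of_nonneg_left (hK.trans (mul_le_mul_of_nonneg_right θ1 h3.le)) τ0.le]
  have e3 : h ^ 3 ≤ h := pow_le_of_le_one h0.le (by linarith) (by norm_num)
  have e4 : (h ^ 2) ^ 3 ≤ h * h ^ 3 := by nlinarith [mul_le_mul_of_nonneg_right e3 h3.le]
  have e5 : (τ + h ^ 2) ^ 3 ≤ (8 * τ + 4 * h) * h ^ 3 := by linarith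
  refine le_of_mul_le_mul_right (E.trans ((mul_le_mul_of_nonneg_left e5 A0).trans ?_)) h3
  rw [← mul_assoc]
  exact mul_le_mul_of_nonneg_right (by linarith) h3.le

theorem dom_cmp {h ρ θ : ℝ} (h0 : 0 < h) (ρ0 : 0 ≤ ρ) (th : |1 - θ| ≤ 1 / 10)
    (e : ρ ^ 3 = (θ * h ^ 3) ^ 2) :
    h ^ 2 ≤ 2 * ρ ∧ ρ ≤ 11 / 10 * (θ * h ^ 2) ∧ θ * h ^ 2 ≤ 2 * ρ := by
  obtain ⟨t1, t2⟩ := abs_le.1 th
  have θ0 : 0 < θ := by linarith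
  have h6 := pow_pos h0 6
  have q : 0 < θ ^ 2 * h ^ 6 := by positivity
  have e' : ρ ^ 3 = θ ^ 2 * h ^ 6 := by rw [e]; ring
  refine ⟨le_of_pow_le_pow_left₀ (n := 3) (by norm_num) (by positivity) ?_,
    le_of_pow_le_pow_left₀ (n := 3) (by norm_num) (by positivity) ?_,
    le_of_pow_le_pow_left₀ (n := 3) (by norm_num) (by positivity) ?_⟩
  · rw [mul_pow, e']
    have : 1 ≤ 2 ^ 3 * θ ^ 2 := by nlinarith
    nlinarith [mul_le_mul_of_nonneg_right this h6.le]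
  · rw [e']
    have : 1 ≤ (11 / 10) ^ 3 * θ := by linarith
    nlinarith [mul_le_mul_of_nonneg_right this q.le]
  · rw [mul_pow 2, e']
    have : θ ≤ 2 ^ 3 := by linarith
    nlinarith [mul_le_mul_of_nonneg_right this q.le]

theorem n_dom (hκ : κ.Adm) : ∀ᶠ r in fam κ, ∀ t ∈ r.I, ∀ y ∈ r.dom t, DomF κ r.S t y := by
  filter_upwards [bas_I hκ, ev_tau κ (ε := fun _ => 1 / 100) fun _ _ => by norm_num,
    ev_mul_s κ (8 * κ.AE) (ε := 1 / 20) (by norm_num),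
    ev_mul_tau κ (fun _ => 8 * κ.AE) (ε := fun _ => 1 / 20) fun _ _ => by norm_num]
    with r h1 h2 h3 h4 t ht y hy
  have b := h1 t ht y hy.1
  have τ0 : 0 < r.S.τ₀ - t := r.tau_pos ht
  have τ1 : r.S.τ₀ - t ≤ r.S.τ₀ := r.tau_le ht
  have hK : (r.S.τ₀ - t) ^ 2 ≤ r.S.KK t y := hy.2
  have hy1 : y ∈ Icc (0 : ℝ) 1 := ⟨b.mem.1, b.mem.2.trans (by norm_num)⟩
  have y0 : 0 < y := lt_of_le_of_ne b.mem.1 (by
    rintro rfl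
    have : r.S.KK t 0 = 0 := by simp [St.KK]
    nlinarith)
  have E : |r.S.EE t y| ≤ κ.AE * r.S.sg t y ^ 3 := by
    have := ((r.tr ht).I y hy.1).E
    rwa [one_mul] at this
  have hh : r.S.hh t y ≤ (1 + 1) * r.s := ((r.tr ht).I y hy.1).h
  have h0 := r.S.hh_pos t y
  have t0 := r.S.th_nonneg (t := t) hy1
  have ρ0 := r.S.rho_nonneg (t := t) hy1
  have th : |1 - r.S.th t y| ≤ 1 / 10 := by
    refine dom_th (A := κ.AE) (zero_le_one.trans hκ.AE) τ0 h0 b.h b.th (r.S.KK_eq t y ▸ hK) ?_ ?_ ?_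
    · rw [r.S.EE_eq, r.S.sg_eq, abs_mul, abs_of_pos (pow_pos h0 3)] at E
      exact E
    · nlinarith [hκ.AE]
    · nlinarith [hκ.AE]
  obtain ⟨c1, c2, c3⟩ := dom_cmp h0 ρ0 th (by rw [r.S.rho_cube hy1, r.S.KK_eq])
  have k := abs_le.1 b.k
  refine ⟨b, ⟨y0, b.mem.2.trans_lt (by norm_num)⟩, τ0, τ1.trans h2, hK,
    ⟨by linarith [b.th], by linarith [b.th]⟩, E, th, c1, r.S.f2_eq t y ▸ c2, r.S.f2_eq t y ▸ c3, ?_,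
    by nlinarith [b.rho, b.h]⟩
  rw [r.S.sg_eq]
  linarith

theorem n_lev (hκ : κ.Adm) : ∀ᶠ r in fam κ, ∀ t ∈ r.I, ∀ y ∈ Icc 0 (r.s ^ 3),
    κ.η * r.tau t ≤ r.S.rho t y → y ∈ r.dom t := by
  filter_upwards [bas_I hκ, ev_tau κ (ε := fun _ => κ.η ^ 3) fun _ _ => pow_pos hκ.η 3]
    with r h1 h2 t ht y hy h
  have b := h1 t ht y hy
  have hy1 : y ∈ Icc (0 : ℝ) 1 := ⟨b.mem.1, b.mem.2.trans (by norm_num)⟩
  have τ0 := r.tau_pos ht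
  refine ⟨hy, le_of_pow_le_pow_left₀ (n := 2) (by norm_num) (r.S.KK_nonneg hy1) ?_⟩
  rw [← r.S.rho_cube hy1]
  refine le_trans ?_ (pow_le_pow_left₀ (mul_pos hκ.η τ0).le h 3)
  nlinarith [mul_le_mul_of_nonneg_right ((r.tau_le ht).trans h2) (pow_pos τ0 3).le]

theorem Cst.Adm.eta_le (hκ : κ.Adm) : κ.η ≤ 1 / 1000 := by
  nlinarith [hκ.ηA, hκ.Am, hκ.η]

/-- Level points with bounded exit values. -/
structure LvP (r : Rn κ) (t ya yb : ℝ) : Prop where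
  ma : ya ∈ Icc 0 (r.s ^ 3)
  mb : yb ∈ Icc 0 (r.s ^ 3)
  ra : r.S.rho t ya = κ.η * r.tau t
  rb : r.S.rho t yb = 2 * κ.η * r.tau t
  x0 : |r.S.Z0 t ya| ≤ κ.δ * r.tau t ^ 3
  x1 : |r.S.Z1 t ya| ≤ κ.δ / 2 * r.tau t ^ 2
  x2 : |r.S.Z1 t yb - r.S.Z1 t ya| ≤ κ.δ / 10 * κ.η * r.tau t ^ 2

theorem Rn.lvp (hκ : κ.Adm) (r : Rn κ) {t : ℝ} (ht : t ∈ r.I) : ∃ ya yb, LvP r t ya yb := by
  obtain ⟨x, ⟨ya, ma, yb, mb, ra, rb, rfl⟩, hx⟩ := r.ex ht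
  have τ0 := r.tau_pos ht
  have δ0 := hκ.δ
  have η0 := hκ.η
  have k : ∀ {a b : ℝ}, 0 < b → |a / b| ≤ 1 → |a| ≤ b := fun hb h => by
    rwa [abs_div, abs_of_pos hb, div_le_one hb] at h
  exact ⟨ya, yb, ma, mb, ra, rb, k (by positivity) (hx 0), k (by positivity) (hx 1),
    k (by positivity) (hx 2)⟩

end Vale.Agent.P244
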