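import Vale.Agent.P244.N.Bar

/-!
N3: integration in `ϱ` from the level points.
Plan `int_rho`: `cmp_abs` for `g = u - c ϱ`, `G = ψ (ϱ)`... continuity on `Icc a b` from `SmAt`
(`SmAt.slice`), `dX g = (D u - c) dX ϱ` (`dX_sub`, `dX_mul`, `dX_time`, `dX_eq_Dr`),
`dX G = ψ'(ϱ) dX ϱ` (`dX_comp`), `dX ϱ > 0` (`dX_rho`).  `SmAt` of `G`: `ContDiff.contDiffAt`,
`ContDiffAt.comp_contDiffWithinAt`.
`n_Z2`: `r₀ = η τ`; `ya < yb` and `[ya, s³] ⊆ {ϱ ≥ r₀}` by `bas_mono`; `n_lev`, `n_dom` give `0 < z < 1`,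
`0 < k`; `int_rho` with `ψ x = ε x` gives `|Z₂ z - Z₂ ya| ≤ ε (ϱ z - r₀)` (`St.Z3` unfolds to
`Dr Z2`); then `int_rho` with `c = Z₂ ya`, `ψ x = ε r₀ x`.
`n_Z`: level points from `Rn.lvp`, `ya ≤ y` by monotonicity; `ε = 1/1000`;
`|Z₂ ya| ≤ δ τ / 10 + ε r₀`, so `|Z₂ z| ≤ (τ + ϱ z) / 100` on `[ya, s³]`; `ψ x = (τ + x)² / 200` gives
`|Z₁ z| ≤ δ τ² / 2 + ψ (ϱ z) - ψ r₀ ≤ (τ + ϱ z)² / 200`; `ψ x = (τ + x)³ / 600` with `Dr_Z0`.
-/

namespace Vale.Agent.P244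

open scoped ContDiff Topology
open Set Filter Real

variable {κ : Cst}

theorem nint_lin (e x : ℝ) : deriv (fun x : ℝ => e * x) x = e := by
  simp

theorem nint_pow (τ d x : ℝ) (n : ℕ) :
    deriv (fun x : ℝ => (τ + x) ^ (n + 1) / d) x = (n + 1) * (τ + x) ^ n / d := by
  simpa using ((((hasDerivAt_id' x).const_add τ).pow (n + 1)).div_const d).deriv

theorem nint_sm (τ d : ℝ) (n : ℕ) : ContDiff ℝ ∞ fun x : ℝ => (τ + x) ^ n / d :=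
  ((contDiff_const.add contDiff_id).pow n).div_const d

/-- Facts on the segment from the lower level point. -/
theorem nint_reg {r : Rn κ} {t ya : ℝ} (ht : t ∈ r.I)
    (h1 : StrictMonoOn (r.S.rho t) (Icc 0 (r.s ^ 3)))
    (h2 : ∀ y ∈ Icc 0 (r.s ^ 3), κ.η * r.tau t ≤ r.S.rho t y → y ∈ r.dom t)
    (h3 : ∀ y ∈ r.dom t, DomF κ r.S t y) (ma : ya ∈ Icc 0 (r.s ^ 3))
    (ra : r.S.rho t ya = κ.η * r.tau t) {z : ℝ} (hz : z ∈ Icc ya (r.s ^ 3)) :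
    z ∈ Icc 0 (r.s ^ 3) ∧ κ.η * r.tau t ≤ r.S.rho t z ∧ z ∈ Ioo (0 : ℝ) 1 ∧ 0 < r.S.kk t z ∧
      SmAt r.I r.S.Z0 t z ∧ SmAt r.I r.S.Z1 t z ∧ SmAt r.I r.S.Z2 t z := by
  have m : z ∈ Icc 0 (r.s ^ 3) := ⟨ma.1.trans hz.1, hz.2⟩
  have q : κ.η * r.tau t ≤ r.S.rho t z := ra ▸ h1.monotoneOn ma m hz.1
  have d := h3 z (h2 z m q)
  have k0 : 0 < r.S.kk t z := by linarith [d.k.1]
  have s1 := r.sol.sm_Z1 ht d.mem k0.ne'
  exact ⟨m, q, d.mem, k0, r.sol.sm_Z0 ht d.mem, s1, r.sol.sm_Dr ht d.mem k0.ne' s1⟩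

theorem St.Sol.int_rho {S : St} {t₁ t a b c : ℝ} {u : Fn} {ψ : ℝ → ℝ} (h : S.Sol t₁)
    (ht : t ∈ Icc 0 t₁) (ha : 0 < a) (hab : a ≤ b) (hb : b < 1) (hψ : ContDiff ℝ ∞ ψ)
    (hu : ∀ z ∈ Icc a b, 0 < S.kk t z ∧ SmAt (Icc 0 t₁) u t z ∧
      |S.Dr u t z - c| ≤ deriv ψ (S.rho t z)) :
    |u t b - u t a - c * (S.rho t b - S.rho t a)| ≤ ψ (S.rho t b) - ψ (S.rho t a) := by
  have mem : ∀ z ∈ Icc a b, z ∈ Ioo (0 : ℝ) 1 := fun z hz =>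
    ⟨ha.trans_le hz.1, hz.2.trans_lt hb⟩
  have sg : ∀ z ∈ Icc a b, SmAt (Icc 0 t₁) (fun s z => u s z - c * S.rho s z) t z := fun z hz =>
    (hu z hz).2.1.sub ((smAt_const c).mul (h.sm_rho ht (mem z hz)))
  have sG : ∀ z ∈ Icc a b, SmAt (Icc 0 t₁) (fun s z => ψ (S.rho s z)) t z := fun z hz =>
    hψ.contDiffAt.comp_contDiffWithinAt (t, z) (h.sm_rho ht (mem z hz))
  have sub : Icc a b ⊆ Icc (0 : ℝ) 1 := fun z hz => Ioo_subset_Icc_self (mem z hz)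
  have key := cmp_abs (I := Icc 0 t₁) (g := fun s z => u s z - c * S.rho s z)
    (G := fun s z => ψ (S.rho s z)) ht ha.le hab hb
    (fun z hz => ((sg z hz).slice ht).continuousWithinAt.mono sub)
    (fun z hz => ((sG z hz).slice ht).continuousWithinAt.mono sub)
    (fun z hz => sg z (Ioo_subset_Icc_self hz)) (fun z hz => sG z (Ioo_subset_Icc_self hz))
    fun z hz => by
      have hz' := Ioo_subset_Icc_self hz
      have m := mem z hz'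
      have m' := sub hz'
      obtain ⟨k0, su, hd⟩ := hu z hz'
      have r := h.sm_rho ht m
      have p : 0 < dX S.rho t z := by
        rw [h.dX_rho ht m]
        have := S.rho_pos (t := t) m
        positivity
      rw [dX_sub h.ti ht m' su ((smAt_const c).mul r), dX_mul h.ti ht m' (smAt_const c) r,
        dX_time h.ti ht m' (fun _ => c),
        dX_comp h.ti ht m' r (hψ.differentiable (by simp) _).hasDerivAt,
        h.dX_eq_Dr ht u m k0.ne']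
      have e : S.Dr u t z * dX S.rho t z - (0 * S.rho t z + c * dX S.rho t z) =
          (S.Dr u t z - c) * dX S.rho t z := by ring
      rw [e, abs_mul, abs_of_pos p]
      exact mul_le_mul_of_nonneg_right hd p.le
  have e : u t b - u t a - c * (S.rho t b - S.rho t a) =
      u t b - c * S.rho t b - (u t a - c * S.rho t a) := by ring
  rw [e]
  exact key

theorem n_Z2 (hκ : κ.Adm) {ε : ℝ} (hε : 0 < ε) : ∀ᶠ r in fam κ, ∀ t ∈ r.I,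
    ∀ ya ∈ Icc 0 (r.s ^ 3), r.S.rho t ya = κ.η * r.tau t →
      (∀ z ∈ Icc ya (r.s ^ 3), |r.S.Z2 t z - r.S.Z2 t ya| ≤ ε * (r.S.rho t z - κ.η * r.tau t)) ∧
      ∀ yb ∈ Icc 0 (r.s ^ 3), r.S.rho t yb = 2 * κ.η * r.tau t → ya < yb ∧
        |r.S.Z1 t yb - r.S.Z1 t ya - κ.η * r.tau t * r.S.Z2 t ya| ≤ ε * (κ.η * r.tau t) ^ 2 := by
  filter_upwards [bas_mono hκ, n_lev hκ, n_dom hκ, n_Z3 hκ hε] with r h1 h2 h3 h4 t ht ya ma ra
  have mono := (h1 t ht).1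
  have r0 : 0 < κ.η * r.tau t := mul_pos hκ.η (r.tau_pos ht)
  have reg := fun z hz => nint_reg ht mono (h2 t ht) (h3 t ht) ma ra (z := z) hz
  have ya0 : 0 < ya := (reg ya ⟨le_rfl, ma.2⟩).2.2.1.1
  have A : ∀ z ∈ Icc ya (r.s ^ 3),
      |r.S.Z2 t z - r.S.Z2 t ya| ≤ ε * (r.S.rho t z - κ.η * r.tau t) := fun z hz => by
    have k := r.sol.int_rho (u := r.S.Z2) (c := 0) (ψ := fun x => ε * x) ht ya0 hz.1
      (reg z hz).2.2.1.2 (contDiff_const.mul contDiff_id) fun w hw => by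
        obtain ⟨a1, a2, -, a4, -, -, a7⟩ := reg w ⟨hw.1, hw.2.trans hz.2⟩
        refine ⟨a4, a7, ?_⟩
        rw [nint_lin, sub_zero]
        exact h4 t ht w a1 a2
    rw [zero_mul, sub_zero, ra] at k
    linarith
  refine ⟨A, fun yb mb rb => ?_⟩
  have lt : ya < yb := (mono.lt_iff_lt ma mb).1 (by rw [ra, rb]; linarith)
  have hb : yb ∈ Icc ya (r.s ^ 3) := ⟨lt.le, mb.2⟩
  refine ⟨lt, ?_⟩
  have k := r.sol.int_rho (u := r.S.Z1) (c := r.S.Z2 t ya)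
    (ψ := fun x => ε * (κ.η * r.tau t) * x) ht ya0 lt.le
    (reg yb hb).2.2.1.2 (contDiff_const.mul contDiff_id) fun w hw => by
      have hw' : w ∈ Icc ya (r.s ^ 3) := ⟨hw.1, hw.2.trans mb.2⟩
      obtain ⟨a1, -, -, a4, -, a6, -⟩ := reg w hw'
      refine ⟨a4, a6, ?_⟩
      rw [nint_lin]
      have b1 : r.S.rho t w ≤ 2 * κ.η * r.tau t := rb ▸ mono.monotoneOn a1 mb hw.2
      exact (A w hw').trans (mul_le_mul_of_nonneg_left (by linarith) hε.le)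
  rw [ra, rb] at k
  have e1 : r.S.Z2 t ya * (2 * κ.η * r.tau t - κ.η * r.tau t) = κ.η * r.tau t * r.S.Z2 t ya := by
    ring
  rw [e1] at k
  exact k.trans (le_of_eq (by ring))

theorem n_Z (hκ : κ.Adm) : ∀ᶠ r in fam κ, ∀ t ∈ r.I, ∀ y ∈ Icc 0 (r.s ^ 3),
    κ.η * r.tau t ≤ r.S.rho t y → |r.S.Z1 t y| ≤ (r.tau t + r.S.rho t y) ^ 2 / 100 ∧
      |r.S.Z0 t y| ≤ (r.tau t + r.S.rho t y) ^ 3 / 100 := by
  filter_upwards [bas_mono hκ, n_lev hκ, n_dom hκ, n_Z2 hκ (ε := 1 / 1000) (by norm_num)]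
    with r h1 h2 h3 h4 t ht y my ry
  obtain ⟨ya, yb, L⟩ := r.lvp hκ ht
  have mono := (h1 t ht).1
  have τ0 := r.tau_pos ht
  have η0 := hκ.η
  have η1 := hκ.eta_le
  have δ0 := hκ.δ
  have δ1 := hκ.δ'
  have r0 : 0 < κ.η * r.tau t := mul_pos hκ.η τ0
  have r1 : κ.η * r.tau t ≤ 1 / 1000 * r.tau t := mul_le_mul_of_nonneg_right η1 τ0.le
  have reg := fun z hz => nint_reg ht mono (h2 t ht) (h3 t ht) L.ma L.ra (z := z) hz
  have ya0 : 0 < ya := (reg ya ⟨le_rfl, L.ma.2⟩).2.2.1.1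
  obtain ⟨A, B⟩ := h4 t ht ya L.ma L.ra
  obtain ⟨-, B⟩ := B yb L.mb L.rb
  have z2a : |r.S.Z2 t ya| ≤ κ.δ / 10 * r.tau t + 1 / 1000 * (κ.η * r.tau t) := by
    have e : κ.η * r.tau t * r.S.Z2 t ya = (r.S.Z1 t yb - r.S.Z1 t ya) -
        (r.S.Z1 t yb - r.S.Z1 t ya - κ.η * r.tau t * r.S.Z2 t ya) := by ring
    have b1 : |κ.η * r.tau t * r.S.Z2 t ya| ≤
        κ.δ / 10 * κ.η * r.tau t ^ 2 + 1 / 1000 * (κ.η * r.tau t) ^ 2 := by
      rw [e]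
      exact (abs_sub _ _).trans (add_le_add L.x2 B)
    rw [abs_mul, abs_of_pos r0] at b1
    refine le_of_mul_le_mul_left (b1.trans (le_of_eq ?_)) r0
    ring
  have d1 : κ.δ * r.tau t ≤ 1 / 100 * r.tau t := mul_le_mul_of_nonneg_right δ1 τ0.le
  have z2 : ∀ z ∈ Icc ya (r.s ^ 3), |r.S.Z2 t z| ≤ (r.tau t + r.S.rho t z) / 100 := fun z hz => by
    have b1 := A z hz
    have b2 := (reg z hz).2.1
    have b3 := abs_sub_abs_le_abs_sub (r.S.Z2 t z) (r.S.Z2 t ya)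
    linarith
  have z1 : ∀ z ∈ Icc ya (r.s ^ 3), |r.S.Z1 t z| ≤ (r.tau t + r.S.rho t z) ^ 2 / 200 := fun z hz => by
    have k := r.sol.int_rho (u := r.S.Z1) (c := 0) (ψ := fun x => (r.tau t + x) ^ (1 + 1) / 200)
      ht ya0 hz.1 (reg z hz).2.2.1.2 (nint_sm _ _ _) fun w hw => by
        have hw' : w ∈ Icc ya (r.s ^ 3) := ⟨hw.1, hw.2.trans hz.2⟩
        obtain ⟨-, -, -, a4, -, a6, -⟩ := reg w hw'
        refine ⟨a4, a6, ?_⟩
        rw [nint_pow, sub_zero]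
        refine (z2 w hw').trans (le_of_eq ?_)
        push_cast
        ring
    rw [zero_mul, sub_zero, L.ra] at k
    have b3 := abs_sub_abs_le_abs_sub (r.S.Z1 t z) (r.S.Z1 t ya)
    have b4 := L.x1
    have b6 : r.tau t ^ 2 ≤ (r.tau t + κ.η * r.tau t) ^ 2 :=
      pow_le_pow_left₀ τ0.le (by linarith) 2
    have b7 : κ.δ / 2 * r.tau t ^ 2 ≤ 1 / 200 * r.tau t ^ 2 :=
      mul_le_mul_of_nonneg_right (by linarith) (by positivity)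
    have k' : |r.S.Z1 t z - r.S.Z1 t ya| ≤
        (r.tau t + r.S.rho t z) ^ 2 / 200 - (r.tau t + κ.η * r.tau t) ^ 2 / 200 := k
    generalize (r.tau t + κ.η * r.tau t) ^ 2 = A1 at b6 k'
    generalize κ.δ / 2 * r.tau t ^ 2 = A2 at b4 b7
    generalize r.tau t ^ 2 = A3 at b6 b7
    generalize (r.tau t + r.S.rho t z) ^ 2 = A4 at k' ⊢
    linarith only [k', b3, b4, b6, b7]
  have hy : y ∈ Icc ya (r.s ^ 3) := ⟨(mono.le_iff_le L.ma my).1 (L.ra ▸ ry), my.2⟩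
  have p0 : 0 ≤ r.S.rho t y := r0.le.trans ry
  refine ⟨(z1 y hy).trans ?_, ?_⟩
  · have : 0 ≤ (r.tau t + r.S.rho t y) ^ 2 := by positivity
    linarith
  have k := r.sol.int_rho (u := r.S.Z0) (c := 0) (ψ := fun x => (r.tau t + x) ^ (2 + 1) / 600)
    ht ya0 hy.1 (reg y hy).2.2.1.2 (nint_sm _ _ _) fun w hw => by
      have hw' : w ∈ Icc ya (r.s ^ 3) := ⟨hw.1, hw.2.trans hy.2⟩
      obtain ⟨-, -, a3, a4, a5, -, -⟩ := reg w hw'
      refine ⟨a4, a5, ?_⟩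
      rw [nint_pow, sub_zero, r.sol.Dr_Z0 ht a3 a4.ne']
      refine (z1 w hw').trans (le_of_eq ?_)
      push_cast
      ring
  rw [zero_mul, sub_zero, L.ra] at k
  have b3 := abs_sub_abs_le_abs_sub (r.S.Z0 t y) (r.S.Z0 t ya)
  have b4 := L.x0
  have b7 : κ.δ * r.tau t ^ 3 ≤ 1 / 100 * r.tau t ^ 3 :=
    mul_le_mul_of_nonneg_right δ1 (by positivity)
  have b6 : r.tau t ^ 3 ≤ (r.tau t + κ.η * r.tau t) ^ 3 :=
    pow_le_pow_left₀ τ0.le (by linarith) 3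
  have b8 : r.tau t ^ 3 ≤ (r.tau t + r.S.rho t y) ^ 3 := pow_le_pow_left₀ τ0.le (by linarith) 3
  have k' : |r.S.Z0 t y - r.S.Z0 t ya| ≤
      (r.tau t + r.S.rho t y) ^ 3 / 600 - (r.tau t + κ.η * r.tau t) ^ 3 / 600 := k
  generalize (r.tau t + κ.η * r.tau t) ^ 3 = A1 at b6 k'
  generalize κ.δ * r.tau t ^ 3 = A2 at b4 b7
  generalize (r.tau t + r.S.rho t y) ^ 3 = A4 at k' b8 ⊢
  generalize r.tau t ^ 3 = A3 at b6 b7 b8
  linarith only [k', b3, b4, b6, b7, b8]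

end Vale.Agent.P244
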