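import Vale.Agent.P244.N.Int

/-!
N3, output.
Plan: `n_Z`, `n_lev`, `n_dom`.  Unfold `Z1`: `n = 2/3 k ϱ (Z₁ + PP1 τ ϱ)`, `|PP1 τ ϱ| ≤ 27/40 (τ + ϱ)²`,
`|PP τ ϱ| ≤ (τ + ϱ)³`, `τ + ϱ ≤ 2 σ` (`BasI.rho`, `sg_eq`), `k ≤ 21/10`, `ϱ ≤ 11/10 f²`, so
`|n| ≤ 2 f² (τ + ϱ)² ≤ 8 f² σ²` and `nn_eq` with `f² > 0`, `σ > 0` bounds `u₁`.
`E = Z₀ + PP`.  `τ³ ≤ τ² ≤ K = θ h³ ≤ 2 H`.  At `ϱ = η τ`, `η ≤ 1/1000` (`eta_le`):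
`(τ + ϱ)² ≤ 2 τ²`, `|PP τ (η τ) - τ³| ≤ η τ³`.
-/

namespace Vale.Agent.P244

open scoped ContDiff Topology
open Set Filter Real

variable {κ : Cst}

theorem nout_pp1 {τ ρ : ℝ} (hτ : 0 ≤ τ) (hρ : 0 ≤ ρ) : |PP1 τ ρ| ≤ 27 / 40 * (τ + ρ) ^ 2 := by
  have h1 := mul_nonneg hτ hρ
  have h2 := sq_nonneg τ
  have h3 := sq_nonneg ρ
  unfold PP1
  exact abs_le.2 ⟨by linarith, by linarith⟩

theorem nout_pp {τ ρ : ℝ} (hτ : 0 ≤ τ) (hρ : 0 ≤ ρ) : |PP τ ρ| ≤ (τ + ρ) ^ 3 := by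
  have h1 : 0 ≤ τ ^ 3 := by positivity
  have h2 : 0 ≤ τ ^ 2 * ρ := by positivity
  have h3 : 0 ≤ τ * ρ ^ 2 := by positivity
  have h4 : 0 ≤ ρ ^ 3 := by positivity
  unfold PP
  exact abs_le.2 ⟨by linarith, by linarith⟩

theorem nout_lev {τ ρ Z : ℝ} (hτ : 0 ≤ τ) (hρ : 0 ≤ ρ) (h : ρ ≤ τ / 1000)
    (hZ : |Z| ≤ (τ + ρ) ^ 3 / 100) :
    (τ + ρ) ^ 2 ≤ 2 * τ ^ 2 ∧ |Z + PP τ ρ - τ ^ 3| ≤ τ ^ 3 / 10 := by
  have h0 : ρ ≤ τ := by linarith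
  have h1 : 0 ≤ τ ^ 3 := by positivity
  have h2 : 0 ≤ τ ^ 2 * ρ := by positivity
  have h3 : 0 ≤ τ * ρ ^ 2 := by positivity
  have h4 : 0 ≤ ρ ^ 3 := by positivity
  have h5 : τ ^ 2 * ρ ≤ τ ^ 2 * (τ / 1000) := mul_le_mul_of_nonneg_left h (sq_nonneg τ)
  have h6 : τ * ρ * ρ ≤ τ * ρ * τ := mul_le_mul_of_nonneg_left h0 (mul_nonneg hτ hρ)
  have h7 : ρ ^ 2 * ρ ≤ ρ ^ 2 * τ := mul_le_mul_of_nonneg_left h0 (sq_nonneg ρ)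
  have h8 : τ * ρ ≤ τ * (τ / 1000) := mul_le_mul_of_nonneg_left h hτ
  have h9 : ρ * ρ ≤ ρ * τ := mul_le_mul_of_nonneg_left h0 hρ
  have h10 := sq_nonneg τ
  obtain ⟨a, b⟩ := abs_le.1 hZ
  unfold PP
  exact ⟨by linarith, abs_le.2 ⟨by linarith, by linarith⟩⟩

theorem nout_n {n k ρ τ f : ℝ} (hτ : 0 ≤ τ) (hρ : 0 < ρ) (hk : 19 / 10 ≤ k ∧ k ≤ 21 / 10)
    (hf : ρ ≤ 11 / 10 * f) (hZ : |3 * n / (2 * k * ρ) - PP1 τ ρ| ≤ (τ + ρ) ^ 2 / 100) :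
    |n| ≤ 2 * f * (τ + ρ) ^ 2 := by
  have hk0 : 0 < k := by linarith [hk.1]
  have hd : 0 < 2 * k * ρ := by positivity
  have h1 : |3 * n / (2 * k * ρ)| ≤ (τ + ρ) ^ 2 := by
    have := abs_add_le (3 * n / (2 * k * ρ) - PP1 τ ρ) (PP1 τ ρ)
    rw [sub_add_cancel] at this
    have h2 := nout_pp1 hτ hρ.le
    have h3 := sq_nonneg (τ + ρ)
    linarith
  rw [abs_div, abs_of_pos hd, div_le_iff₀ hd, abs_mul, abs_of_pos (by norm_num : (0 : ℝ) < 3)] at h1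
  have h2 : k * ρ ≤ 21 / 10 * (11 / 10 * f) := mul_le_mul hk.2 hf hρ.le (by norm_num)
  have h3 := mul_le_mul_of_nonneg_left h2 (sq_nonneg (τ + ρ))
  have h4 : 0 ≤ f * (τ + ρ) ^ 2 := mul_nonneg (by linarith) (sq_nonneg _)
  linarith

theorem n_out' (hκ : κ.Adm) : ∀ᶠ r in fam κ, ∀ t ∈ r.I, ∀ y ∈ Icc 0 (r.s ^ 3),
    κ.η * r.tau t ≤ r.S.rho t y → |r.S.u1 t y| ≤ 40 ∧ |r.S.EE t y| ≤ 40 * r.S.sg t y ^ 3 ∧
      |1 - r.S.th t y| ≤ 1 / 10 ∧ r.tau t ^ 3 ≤ 4 * r.S.HH t y ∧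
      (r.S.rho t y = κ.η * r.tau t → |r.S.nn t y| ≤ 4 * r.S.f2 t y * r.tau t ^ 2 ∧
        |r.S.EE t y - r.tau t ^ 3| ≤ r.tau t ^ 3 / 10) := by
  filter_upwards [n_Z hκ, n_lev hκ, n_dom hκ] with r hZ hl hd t ht y hy h
  obtain ⟨hZ1, hZ0⟩ := hZ t ht y hy h
  have D := hd t ht y (hl t ht y hy h)
  have hτ : 0 < r.tau t := D.tau0
  have hle : t ≤ r.S.τ₀ := (sub_pos.1 D.tau0).le
  have hρ := r.S.rho_pos (t := t) D.mem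
  have hf := r.S.f2_pos (t := t) D.mem
  have hσ := r.S.sg_pos (y := y) hle
  have hn := nout_n hτ.le hρ D.k D.rf hZ1
  have hs : r.tau t + r.S.rho t y ≤ 2 * r.S.sg t y := by
    have := D.bas.rho
    rw [St.sg_eq]
    linarith [D.tau0]
  have hs0 : 0 ≤ r.tau t + r.S.rho t y := by linarith
  have hE : r.S.EE t y = r.S.Z0 t y + PP (r.tau t) (r.S.rho t y) := (sub_add_cancel _ _).symm
  refine ⟨?_, ?_, D.th, ?_, fun e => ?_⟩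
  · have h1 := mul_le_mul_of_nonneg_left (pow_le_pow_left₀ hs0 hs 2) hf.le
    have h2 : 0 < r.S.f2 t y * r.S.sg t y ^ 2 := by positivity
    rw [r.S.nn_eq hle, abs_mul, abs_of_pos h2] at hn
    refine le_of_mul_le_mul_left ?_ h2
    linarith
  · have h1 := pow_le_pow_left₀ hs0 hs 3
    have h2 := nout_pp hτ.le hρ.le
    have h3 : 0 < r.S.sg t y ^ 3 := by positivity
    rw [hE]
    refine (abs_add_le _ _).trans ?_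
    linarith
  · have h1 := D.K
    have h2 := mul_le_mul_of_nonneg_right D.bas.th (pow_pos (r.S.hh_pos t y) 3).le
    have h3 := mul_le_mul_of_nonneg_left D.tau1 (sq_nonneg (r.S.τ₀ - t))
    have h4 := pow_pos (r.S.hh_pos t y) 3
    rw [St.KK_eq] at h1
    rw [St.HH_eq]
    change (r.S.τ₀ - t) ^ 3 ≤ _
    linarith
  · have h1 : r.S.rho t y ≤ r.tau t / 1000 := by
      have := mul_le_mul_of_nonneg_right hκ.eta_le hτ.le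
      linarith
    obtain ⟨h2, h3⟩ := nout_lev hτ.le hρ.le h1 hZ0
    have h4 := mul_le_mul_of_nonneg_left h2 hf.le
    exact ⟨by linarith, hE ▸ h3⟩

end Vale.Agent.P244
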