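import Vale.Agent.P244.N.Dom

/-!
N1, first part: the symbol context of the cone region and the basic symbols.
Plan `exists_NC`: `q r` is the conjunction of the properties given by `n_dom`, `p0_ab hκ 4`,
`p1 hκ 4`; `J i = {y ∈ Ioo 0 1, 0 < k}` (`ro_kk`), `Ω i = dom`, `N = 1`; `sy_of_iter`, `iter_F`.
`rho`: `sy_of_log` with `dX_rho`.  `Dr`: `D g = (3/2) k⁻¹ ϱ⁻¹ g'`, `Sy.mul_one`.
Weights: `σ² / h ≤ 3 σ`, `h² ≤ σ`, `θ ≤ 2`, `K ≤ 2 h³`; `w₁ ≤ 4 τ + 32 K + σ` is bounded.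
`gm1`: `g - 1 = (1 - θ) θ⁻¹ (g² + g + 1)⁻¹` because `g³ θ = 1`.
-/

namespace Vale.Agent.P244

open scoped ContDiff Topology
open Set Filter Real

noncomputable section

/-- The small weight `w₁ = σ³ / K + σ`. -/
def St.w1 (S : St) : Fn := fun t y => S.sg t y ^ 3 / S.KK t y + S.sg t y

/-- `g = ϱ / f²`. -/
def St.gg (S : St) : Fn := fun t y => S.rho t y / S.f2 t y

/-- A symbol context in the cone region. -/
structure NC {κ : Cst} {q : Rn κ → Prop} (c : Ctx (Ix q)) : Prop where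
  ic : IC c 3
  J : ∀ i, ∀ y ∈ c.J i, y ∈ Ioo (0 : ℝ) 1 ∧ 0 < i.1.1.S.kk i.1.2 y
  N : ∀ i y, c.N i y = 1
  dom : ∀ i, ∀ y ∈ c.Ω i, DomF κ i.1.1.S i.1.2 y
  u1 : c.Sy 4 (fun _ _ => 1) (F St.u1)
  u2 : c.Sy 4 (fun _ _ => 1) (F St.u2)

theorem exists_NC {κ : Cst} (hκ : κ.Adm) : ∃ q : Rn κ → Prop, (∀ᶠ r in fam κ, q r) ∧
    ∃ c : Ctx (Ix q), NC c ∧ ∀ i, c.Ω i = i.1.1.dom i.1.2 := by
  obtain ⟨C, hC⟩ := p0_ab hκ 4
  obtain ⟨C', hC'⟩ := p1 hκ 4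
  refine ⟨_, (n_dom hκ).and (hC.and hC'), ?_⟩
  let c : Ctx (Ix fun r : Rn κ => (∀ t ∈ r.I, ∀ y ∈ r.dom t, DomF κ r.S t y) ∧
      (∀ i ≤ 4, ∀ t ∈ r.I, ∀ y ∈ Icc (0 : ℝ) 1,
        |dX^[i] r.S.aa t y| ≤ C ∧ |dX^[i] r.S.bb t y| ≤ C) ∧
      ∀ i ≤ 4, ∀ t ∈ r.I, ∀ y ∈ Icc 0 (r.s ^ 3),
        |dX^[i] r.S.u1 t y| ≤ C' ∧ |dX^[i] r.S.u2 t y| ≤ C') :=
    { cf := fun y => 2 * (y * (1 - y))
      J := fun i => {y | y ∈ Ioo (0 : ℝ) 1 ∧ 0 < i.1.1.S.kk i.1.2 y}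
      Ω := fun i => i.1.1.dom i.1.2
      N := fun _ _ => 1
      sm := by fun_prop
      ro := fun i => i.1.1.sol.ro_kk i.2.2
      sub := fun i y hy => ⟨(i.2.1.1 _ i.2.2 y hy).mem, by linarith [(i.2.1.1 _ i.2.2 y hy).k.1]⟩
      one := fun _ _ _ => le_rfl }
  have key : ∀ (g : St → Fn) (B : ℝ), c.Smo (F g) →
      (∀ k ≤ 4, ∀ i, ∀ y ∈ c.Ω i, |dX^[k] (g i.1.1.S) i.1.2 y| ≤ B) →
      c.Sy 4 (fun _ _ => 1) (F g) := by
    intro g B hs hb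
    have e : ∀ k i, c.D^[k] (F g) i = dX^[k] (g i.1.1.S) i.1.2 := fun k i => by
      rw [Ctx.D_iter]
      exact (dX_iter_eq_dl _ _ k).symm
    refine Ctx.sy_of_iter hs (fun k hk => ⟨|B|, abs_nonneg B, fun i y hy => ?_⟩)
      ⟨|B|, abs_nonneg B, fun i y hy => ?_⟩
    · rw [e]
      simpa using (hb k hk.le i y hy).trans (le_abs_self B)
    · rw [e]
      simpa [c] using (hb 4 le_rfl i y hy).trans (le_abs_self B)
  have m1 : ∀ i, ∀ y ∈ c.J i, y ∈ Icc (0 : ℝ) 1 := fun i y hy => Ioo_subset_Icc_self hy.1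
  refine ⟨c, ⟨⟨rfl, fun i y hy => Ioo_subset_Ico_self hy.1, fun i y hy => (i.2.1.1 _ i.2.2 y hy).bas,
    key _ C (fun i y hy => i.1.1.sol.sm_aa.slice i.2.2 y (m1 i y hy))
      fun k hk i y hy => (i.2.1.2.1 k hk _ i.2.2 y (m1 i y (c.sub i hy))).1,
    key _ C (fun i y hy => i.1.1.sol.sm_bb.slice i.2.2 y (m1 i y hy))
      fun k hk i y hy => (i.2.1.2.1 k hk _ i.2.2 y (m1 i y (c.sub i hy))).2⟩,
    fun i y hy => hy, fun _ _ => rfl, fun i y hy => i.2.1.1 _ i.2.2 y hy,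
    key _ C' (fun i y hy => i.1.1.sol.sm_u1.slice i.2.2 y (m1 i y hy))
      fun k hk i y hy => (i.2.1.2.2 k hk _ i.2.2 y hy.1).1,
    key _ C' (fun i y hy => (i.1.1.sol.sm_u2 i.2.2 (Ioo_subset_Ico_self hy.1)).slice i.2.2)
      fun k hk i y hy => (i.2.1.2.2 k hk _ i.2.2 y hy.1).2⟩, fun _ => rfl⟩

namespace NC

variable {κ : Cst} {q : Rn κ → Prop} {c : Ctx (Ix q)} (hc : NC c)
include hc

theorem rho : c.Sy 4 (F St.rho) (F St.rho) := by
  refine Ctx.sy_of_log (fun i y hy => (i.1.1.sol.sm_rho i.2.2 (hc.J i y hy).1).slice i.2.2)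
    (hc.ic.kk.pred.cmul (2 / 3)) fun i y hy => ?_
  rw [hc.ic.D_F]
  exact i.1.1.sol.dX_rho i.2.2 (hc.J i y hy).1
theorem rho_inv : c.Sy 4 (fun i y => (F St.rho i y)⁻¹) (fun i y => (F St.rho i y)⁻¹) := by
  exact hc.rho.inv (fun i y hy => (St.rho_pos _ (hc.J i y hy).1).ne') (Ctx.Bd.refl' _ _)
    fun i y hy => (St.rho_pos _ (hc.dom i y hy).mem).ne'
theorem kk_inv : c.Sy 4 (fun _ _ => 1) (fun i y => (F St.kk i y)⁻¹) := by
  refine syI_eq (hc.ic.kk.inv (fun i y hy => (hc.J i y hy).2.ne')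
    (syI_bd 1 zero_le_one fun i y hy => ⟨zero_le_one, ?_⟩) fun _ _ _ => one_ne_zero)
    fun _ _ _ => inv_one.symm
  have := (hc.dom i y hy).k.1
  simp only [F]
  linarith
theorem Dr {n : ℕ} (hn : n ≤ 3) {w : Ix q → ℝ → ℝ} {g : St → Fn} (h : c.Sy (n + 1) w (F g)) :
    c.Sy n (fun i y => w i y / F St.rho i y) (F fun S => S.Dr (g S)) := by
  have h1 := ((h.D.mul_one hc.N (hc.rho_inv.of_le (by omega))).mul_one hc.N
    (hc.kk_inv.of_le (by omega))).cmul (3 / 2)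
  refine (syI_eq h1 fun i y _ => by rw [mul_one, div_eq_mul_inv]).congr fun i y hy => ?_
  rw [hc.ic.D_F]
  simp only [F, St.Dr]
  ring
theorem w1_bd : c.Bd (fun _ _ => 1) (F St.w1) := by
  refine syI_bd 40 (by norm_num) fun i y hy => ?_
  have d := hc.dom i y hy
  have hK := St.KK_pos i.1.1.S (t := i.1.2) d.mem
  have hr := St.rho_pos i.1.1.S (t := i.1.2) d.mem
  have hs := St.sg_pos i.1.1.S (y := y) (IC.tle i)
  have h3 := St.rho_cube i.1.1.S (t := i.1.2) (Ioo_subset_Icc_self d.mem)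
  have h4 := d.sg
  have h5 := d.r1
  have h6 := d.K
  have h7 := d.tau0
  have h8 := d.tau1
  simp only [F, St.w1]
  generalize i.1.1.S.KK i.1.2 y = K at *
  generalize i.1.1.S.rho i.1.2 y = ρ at *
  generalize i.1.1.S.sg i.1.2 y = σ at *
  generalize i.1.1.S.τ₀ - i.1.2 = τ at *
  refine ⟨by positivity, ?_⟩
  have k1 : K ≤ 1 := by
    have : ρ ^ 3 ≤ 1 := pow_le_one₀ hr.le h5
    nlinarith
  have k2 : σ ^ 3 ≤ (τ + 2 * ρ) ^ 3 := by gcongr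
  have k3 : (τ + 2 * ρ) ^ 3 ≤ 4 * τ ^ 3 + 32 * ρ ^ 3 := by
    nlinarith [mul_nonneg (by positivity : 0 ≤ τ + 2 * ρ) (sq_nonneg (τ - 2 * ρ))]
  have k4 : σ ^ 3 / K ≤ 36 := by
    rw [div_le_iff₀ hK]
    nlinarith
  linarith
theorem sg_w1 : c.Bd (F St.w1) (F St.sg) := by
  refine syI_bd 1 zero_le_one fun i y hy => ?_
  have hK := St.KK_pos i.1.1.S (t := i.1.2) (hc.dom i y hy).mem
  have hs := St.sg_pos i.1.1.S (y := y) (IC.tle i)
  have : 0 ≤ i.1.1.S.sg i.1.2 y ^ 3 / i.1.1.S.KK i.1.2 y := by positivity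
  simp only [F, St.w1]
  exact ⟨hs.le, by linarith⟩
theorem wt_sg : c.Bd (F St.sg)
    fun i y => F St.th i y * (F St.sg i y ^ 2 / F St.hh i y + F St.hh i y ^ 2) := by
  refine syI_bd 8 (by norm_num) fun i y hy => ?_
  have d := hc.dom i y hy
  have hs := St.sg_pos i.1.1.S (y := y) (IC.tle i)
  have hh := St.hh_pos i.1.1.S i.1.2 y
  have ht := St.th_pos i.1.1.S (t := i.1.2) d.mem
  have h1 := IC.sq_le i y
  have h2 := d.bas.th
  have h3 := d.bas.sg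
  simp only [F] at *
  refine ⟨by positivity, ?_⟩
  have k1 : i.1.1.S.sg i.1.2 y ^ 2 / i.1.1.S.hh i.1.2 y ≤ 3 * i.1.1.S.sg i.1.2 y := by
    rw [div_le_iff₀ hh]
    nlinarith
  calc _ ≤ 2 * (3 * i.1.1.S.sg i.1.2 y + i.1.1.S.sg i.1.2 y) := by gcongr
    _ = _ := by ring
theorem EE : c.Sy 5 (fun i y => F St.sg i y ^ 3) (F St.EE) := by
  refine hc.ic.EE le_rfl hc.u1 ⟨|κ.AE|, abs_nonneg _, fun i y hy => (hc.dom i y hy).E.trans ?_⟩
  rw [← abs_mul]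
  exact le_abs_self _
theorem omt : c.Sy 4 (F St.w1) (fun i y => 1 - F St.th i y) := by
  have h1 := ((hc.EE.pred.mul hc.ic.hh_inv).mul hc.ic.hh_inv).mul hc.ic.hh_inv
  refine (h1.mono (syI_bd 2 zero_le_two fun i y hy => ?_)).congr fun i y _ => ?_
  · have d := hc.dom i y hy
    have hK := St.KK_pos i.1.1.S (t := i.1.2) d.mem
    have hs := St.sg_pos i.1.1.S (y := y) (IC.tle i)
    have hh := St.hh_pos i.1.1.S i.1.2 y
    have e := St.KK_eq i.1.1.S i.1.2 y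
    have ht := d.bas.th
    simp only [F, St.w1]
    refine ⟨by positivity, ?_⟩
    have k1 : i.1.1.S.sg i.1.2 y ^ 3 / i.1.1.S.hh i.1.2 y ^ 3 ≤
        2 * (i.1.1.S.sg i.1.2 y ^ 3 / i.1.1.S.KK i.1.2 y) := by
      rw [← mul_div_assoc, div_le_div_iff₀ (by positivity) hK, e]
      nlinarith [mul_pos (pow_pos hs 3) (pow_pos hh 3)]
    calc _ = i.1.1.S.sg i.1.2 y ^ 3 / i.1.1.S.hh i.1.2 y ^ 3 := by field_simp
      _ ≤ _ := by linarith
  · have hh := St.hh_pos i.1.1.S i.1.2 y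
    simp only [F, St.EE_eq]
    field_simp
theorem kk2 : c.Sy 4 (F St.w1) (fun i y => F St.kk i y - 2) := by
  exact (hc.ic.kk2 le_rfl hc.u1 hc.u2).mono (hc.wt_sg.trans' hc.sg_w1)
theorem vt : c.Sy 4 (F St.w1) (F St.vt) := by
  exact (hc.ic.vt le_rfl hc.u1 hc.u2).mono (hc.wt_sg.trans' hc.sg_w1)
theorem Sg : c.Sy 4 (F St.w1) (F St.Sg) := by
  refine (hc.ic.Sg le_rfl hc.u2).mono
    (Ctx.Bd.trans' (syI_bd 2 zero_le_two fun i y hy => ?_) hc.sg_w1)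
  have d := hc.dom i y hy
  have h1 := IC.sq_le i y
  have h2 := d.bas.th
  refine ⟨St.f2_nonneg _ (Ioo_subset_Icc_self d.mem), ?_⟩
  simp only [F, St.f2_eq] at *
  nlinarith [sq_nonneg (i.1.1.S.hh i.1.2 y)]
theorem gg : c.Sy 4 (fun _ _ => 1) (F St.gg) := by
  have h1 := hc.rho.mul (hc.ic.f2.inv (fun i y hy => (St.f2_pos _ (hc.J i y hy).1).ne')
    (Ctx.Bd.refl' _ _) fun i y hy => (St.f2_pos _ (hc.dom i y hy).mem).ne')
  refine (h1.mono (syI_bd 2 zero_le_two fun i y hy => ?_)).congr fun i y _ => ?_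
  · have d := hc.dom i y hy
    have hf := St.f2_pos i.1.1.S (t := i.1.2) d.mem
    have hr := St.rho_pos i.1.1.S (t := i.1.2) d.mem
    have := d.rf
    simp only [F]
    refine ⟨by positivity, ?_⟩
    rw [← div_eq_mul_inv, div_le_iff₀ hf]
    linarith
  · simp only [F, St.gg, div_eq_mul_inv]
theorem gm1 : c.Sy 4 (F St.w1) (fun i y => F St.gg i y - 1) := by
  have t1 : c.Sy 4 (fun _ _ => 1) (fun i y => (F St.th i y)⁻¹) := by
    refine syI_eq (hc.ic.th1.inv (fun i y hy => (St.th_pos _ (hc.J i y hy).1).ne')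
      (syI_bd 2 zero_le_two fun i y hy => ⟨zero_le_one, ?_⟩) fun _ _ _ => one_ne_zero)
      fun _ _ _ => inv_one.symm
    have := (abs_le.1 (hc.dom i y hy).th).2
    simp only [F]
    linarith
  have g0 : ∀ i, ∀ y ∈ c.J i, 0 < F St.gg i y := fun i y hy =>
    div_pos (St.rho_pos _ (hc.J i y hy).1) (St.f2_pos _ (hc.J i y hy).1)
  have t2 : c.Sy 4 (fun _ _ => 1)
      (fun i y => (F St.gg i y * F St.gg i y + F St.gg i y + 1)⁻¹) := by
    refine syI_eq ((((syI_mul hc.gg hc.gg).add hc.gg).add (syI_const c _ 1)).inv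
      (fun i y hy => ?_) (syI_bd 1 zero_le_one fun i y hy => ⟨zero_le_one, ?_⟩)
      fun _ _ _ => one_ne_zero) fun _ _ _ => inv_one.symm
    · have := g0 i y hy
      positivity
    · have := g0 i y (c.sub i hy)
      nlinarith
  refine (syI_mul (syI_mul hc.omt t1) t2).congr fun i y hy => ?_
  have m := (hc.J i y hy).1
  have hg := g0 i y hy
  have ht := St.th_pos i.1.1.S (t := i.1.2) m
  have hh := St.hh_pos i.1.1.S i.1.2 y
  have e : F St.gg i y ^ 3 * F St.th i y = 1 := by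
    simp only [F, St.gg]
    rw [div_pow, St.rho_cube _ (Ioo_subset_Icc_self m), St.KK_eq, St.f2_eq]
    field_simp
  have e' : F St.th i y ≠ 0 := ht.ne'
  have e'' : F St.gg i y * F St.gg i y + F St.gg i y + 1 ≠ 0 := by positivity
  show F St.gg i y - 1 = (1 - F St.th i y) * (F St.th i y)⁻¹ *
    (F St.gg i y * F St.gg i y + F St.gg i y + 1)⁻¹
  field_simp
  linear_combination e

end NC

end

end Vale.Agent.P244
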