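import Vale.Agent.P244.N.Sy1

/-!
N1, second part: the error of the cone equation is a symbol of weight `w₁ σ²`.
Plan: `ca - 16/9 = 4/9 ((k - 2) (k + 2) g + 4 (g - 1))`;
`C₁ + 4 = 12 (1 - θ) / (3 + θ) - (k - 2) θ - 3 ϑ - θ (1 - θ) (k - 2) / (3 + θ)` (`C1_eq`);
`cd - 40/9 = g (8/3 (θ - 1) + 4/9 (k - 2) (k + 2) + 2/3 ((k - 2) C₁ + 2 (C₁ + 4))) + 40/9 (g - 1)`;
`D E = 3/2 k⁻¹ ϱ⁻¹ n` on `J` (`dX_EE`), `IC.nn`, `f² ≤ 2 ϱ`.  Products by `Sy.mul_one hc.N`, weights by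
`Sy.mono`, identities by `Sy.congr`.  `n_sym`: `exists_NC`, `NC.Dr`, `Sy.bd`, `Sy.top`, `Z3_eq`.
-/

namespace Vale.Agent.P244

open scoped ContDiff Topology
open Set Filter Real

namespace NC

variable {κ : Cst} {q : Rn κ → Prop} {c : Ctx (Ix q)} (hc : NC c)
include hc

theorem sy2_mul {n : ℕ} {w g g' : Ix q → ℝ → ℝ} (h : c.Sy n w g)
    (h' : c.Sy n (fun _ _ => 1) g') : c.Sy n w (fun i y => g i y * g' i y) :=
  syI_eq (h.mul_one hc.N h') fun _ _ _ => (mul_one _).symm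

theorem ca : c.Sy 4 (F St.w1) (fun i y => F St.ca i y - 16 / 9) := by
  refine (((syI_mul (syI_mul hc.kk2 (hc.ic.kk.add (syI_const c _ 2))) hc.gg).add
    (hc.gm1.cmul 4)).cmul (4 / 9)).congr fun i y _ => ?_
  simp only [F, St.ca, St.gg]
  ring
theorem C14 : c.Sy 4 (F St.w1) (fun i y => F St.C1 i y + 4) := by
  refine (((((syI_mul hc.omt hc.ic.th3_inv).cmul 12).sub (syI_mul hc.kk2 hc.ic.th1)).sub
    (hc.vt.cmul 3)).sub (syI_mul (syI_mul (syI_mul hc.kk2 hc.ic.th1)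
      ((syI_const c _ 1).sub hc.ic.th1)) hc.ic.th3_inv)).congr fun i y hy => ?_
  have h3 := (hc.ic.memJ hy)
  have h4 : 3 + i.1.1.S.th i.1.2 y ≠ 0 := by
    linarith [St.th_nonneg i.1.1.S (t := i.1.2) h3]
  simp only [F, St.C1_eq _ h3]
  field_simp
  ring
theorem cd : c.Sy 4 (F St.w1) (fun i y => F St.cd i y - 40 / 9) := by
  refine ((syI_mul (((hc.omt.cmul (-(8 / 3))).add
    ((syI_mul hc.kk2 (hc.ic.kk.add (syI_const c _ 2))).cmul (4 / 9))).add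
    (((syI_mul hc.kk2 hc.ic.C1).add (hc.C14.cmul 2)).cmul (2 / 3))) hc.gg).add
    (hc.gm1.cmul (40 / 9))).congr fun i y _ => ?_
  simp only [F, St.cd, St.gg]
  ring
theorem DE : c.Sy 4 (fun i y => F St.sg i y ^ 2) (F fun S => S.Dr S.EE) := by
  refine (((syI_mul ((hc.ic.nn le_rfl hc.u1).mul hc.rho_inv) hc.kk_inv).cmul (3 / 2)).mono
    (syI_bd 2 zero_le_two fun i y hy => ?_)).congr fun i y hy => ?_
  · have d := hc.dom i y hy
    have a1 : 0 < F St.rho i y := St.rho_pos _ d.mem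
    have a2 : 0 < F St.f2 i y := St.f2_pos _ d.mem
    have a3 : F St.f2 i y ≤ 2 * F St.rho i y := d.fr
    refine ⟨by positivity, ?_⟩
    rw [← div_eq_mul_inv, div_le_iff₀ a1]
    nlinarith [sq_nonneg (F St.sg i y)]
  · simp only [F, St.Dr, i.1.1.sol.dX_EE i.2.2 (hc.ic.memJ hy)]
    rw [div_eq_mul_inv, mul_inv, mul_inv]
    ring
theorem Err : c.Sy 3 (fun i y => F St.w1 i y * F St.sg i y ^ 2) (F St.Err) := by
  have r0 : ∀ i, ∀ y ∈ c.Ω i, 0 < F St.rho i y := fun i y hy => St.rho_pos _ (hc.dom i y hy).mem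
  have t1 := syI_eq (w' := fun i y => F St.w1 i y * F St.sg i y ^ 2)
    ((hc.ca.pred.mul hc.rho.pred).mul (hc.Dr le_rfl hc.DE)) fun i y hy => by
      have := (r0 i y hy).ne'
      field_simp
  have t2 := hc.cd.pred.mul hc.DE.pred
  have t3 := ((syI_mul (hc.ic.cE.mono hc.ic.th1.bd) hc.u2).pred.mul hc.EE.pred.pred).mono
    (w' := fun i y => F St.w1 i y * F St.sg i y ^ 2)
    ((hc.sg_w1.mul' (Ctx.Bd.refl' c fun i y => F St.sg i y ^ 2)).congr'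
      (fun i y _ => by ring) fun _ _ _ => rfl)
  exact ((t1.add t2).add t3).congr fun i y _ => rfl

end NC

theorem sy2_mono {x C C' w w' : ℝ} (h : |x| ≤ C * |w|) (e : w = w') (h0 : 0 ≤ w') (hC : C ≤ C') :
    |x| ≤ C' * w' := by
  rw [e, abs_of_nonneg h0] at h
  exact h.trans (mul_le_mul_of_nonneg_right hC h0)

theorem n_sym {κ : Cst} (hκ : κ.Adm) : ∃ C, 0 ≤ C ∧ ∀ᶠ r in fam κ, ∀ t ∈ r.I, ∀ y ∈ r.dom t,
    |r.S.Err t y| ≤ C * (r.S.w1 t y * r.S.sg t y ^ 2) ∧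
    |r.S.Dr r.S.Err t y| ≤ C * (r.S.w1 t y * r.S.sg t y ^ 2 / r.S.rho t y) ∧
    |r.S.Dr (r.S.Dr (r.S.Dr r.S.Err)) t y| ≤
      C * (r.S.w1 t y * r.S.sg t y ^ 2 / r.S.rho t y ^ 3) ∧
    |r.S.Z3 t y| ≤ C * (r.S.sg t y ^ 2 / r.S.rho t y ^ 2 + 1) := by
  obtain ⟨q, hq, c, hc, hΩ⟩ := exists_NC hκ
  have e1 := hc.Dr (n := 2) (by norm_num) hc.Err
  have e2 := hc.Dr (n := 1) (g := fun S => S.Dr S.Err) (by norm_num) e1
  have e3 := hc.Dr (n := 0) (g := fun S => S.Dr (S.Dr S.Err)) (by norm_num) e2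
  have e4 := hc.Dr (n := 3) (g := fun S => S.Dr S.EE) le_rfl hc.DE
  have e5 := hc.Dr (n := 2) (g := fun S => S.Dr (S.Dr S.EE)) (by norm_num) e4
  obtain ⟨C0, p0, b0⟩ := hc.Err.bd
  obtain ⟨C1, p1, b1⟩ := e1.bd
  obtain ⟨C3, p3, b3⟩ := e3.top
  obtain ⟨C4, p4, b4⟩ := e5.bd
  simp only [F, hc.N, mul_one] at b0 b1 b3 b4
  refine ⟨C0 + C1 + C3 + C4 + 1, by positivity, hq.mono fun r hr t ht y hy => ?_⟩
  have hy' : y ∈ c.Ω ⟨(r, t), hr, ht⟩ := by rwa [hΩ]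
  have d : DomF κ r.S t y := hc.dom _ y hy'
  have a1 : 0 < r.S.rho t y := St.rho_pos _ d.mem
  have a2 : 0 < r.S.sg t y := St.sg_pos _ (ht.2.trans r.sol.lt.le)
  have a3 : 0 < r.S.KK t y := St.KK_pos _ d.mem
  have a4 : 0 < r.S.w1 t y := by
    rw [St.w1]
    positivity
  have c0 := b0 ⟨(r, t), hr, ht⟩ y hy'
  have c1 := b1 ⟨(r, t), hr, ht⟩ y hy'
  have c3 := b3 ⟨(r, t), hr, ht⟩ y hy'
  have c4 := b4 ⟨(r, t), hr, ht⟩ y hy'
  dsimp only at c0 c1 c3 c4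
  refine ⟨sy2_mono c0 rfl (by positivity) (by linarith),
    sy2_mono c1 rfl (by positivity) (by linarith),
    sy2_mono c3 (by field_simp) (by positivity) (by linarith), ?_⟩
  have h1 : |r.S.Dr (r.S.Dr (r.S.Dr r.S.EE)) t y| ≤
      (C0 + C1 + C3 + C4 + 1) * (r.S.sg t y ^ 2 / r.S.rho t y ^ 2) :=
    sy2_mono c4 (by field_simp) (by positivity) (by linarith)
  rw [r.sol.Z3_eq ht d.mem (by linarith [d.k.1]), mul_add]
  refine (abs_add_le _ _).trans (add_le_add h1 ?_)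
  rw [abs_of_pos (by norm_num)]
  linarith

end Vale.Agent.P244
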