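import Vale.Agent.P244.A.Id3
import Vale.Agent.P244.Kit.MP

/-!
N2, first part: the cone operator `L = ∂̂_t - 16/9 ϱ D² - 88/9 D` at a touching point.
Plan `dX_dX_lin`: near `y` within `[0, 1]`, `dX (c u - U) = c dX u - dX U` (`smJ_evY`, `dY_eq`), then
`smJ_dX`, `dX_sub`, `dX_mul`, `dX_time`, `SmAt.dX`.
`ll_touch`: as in the proof of `mp_pop` get `F = 0`, `0 ≤ dT F` (`mp_T`), `dX F = 0`,
`dX (dX F) ≤ 0` (`mp_Y`).  Then `c dX u = dX U`, so `c D u = D U` (unfold `St.Dr`); `dX_dX_Dr` for `u`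
and `U` with `dX ϱ = 2/3 k ϱ > 0` (`dX_rho`) gives `c D² u ≤ D² U`; `dT_sub`, `dT_mul` give
`dT U ≤ c dT u`; unfold `St.hT`.
-/

namespace Vale.Agent.P244

open scoped ContDiff Topology
open Set Filter Real

/-- The cone operator for the third derivative. -/
noncomputable def St.LL (S : St) (I : Set ℝ) (u : Fn) : Fn := fun t y =>
  S.hT I u t y - 16 / 9 * S.rho t y * S.Dr (S.Dr u) t y - 88 / 9 * S.Dr u t y

theorem dX_dX_lin {I : Set ℝ} {u U : Fn} {t y : ℝ} (hI : TI I) (ht : t ∈ I)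
    (hy : y ∈ Icc (0 : ℝ) 1) (hu : SmAt I u t y) (hU : SmAt I U t y) (c : ℝ) :
    dX (dX fun s z => c * u s z - U s z) t y = c * dX (dX u) t y - dX (dX U) t y := by
  have e : dX (dX fun s z => c * u s z - U s z) t y =
      dX (fun s z => c * dX u s z - dX U s z) t y := by
    refine smJ_dX hy ?_
    filter_upwards [smJ_evY hu ht, smJ_evY hU ht, self_mem_nhdsWithin] with z h1 h2 h3
    have e1 : dY (fun s z => c * u s z - U s z) t z = c * dY u t z - dY U t z :=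
      dY_eq h3 ((h1.const_mul c).sub h2)
    simp only [dX, e1]
    ring
  rw [e, dX_sub hI ht hy ((smAt_const c).mul (hu.dX hI ht hy)) (hU.dX hI ht hy),
    dX_mul hI ht hy (smAt_const c) (hu.dX hI ht hy), dX_time hI ht hy (fun _ => c)]
  ring

theorem St.Sol.ll_touch {S : St} {t₁ t y c : ℝ} {u U : Fn} {Ω : Set (ℝ × ℝ)} (h : S.Sol t₁)
    (ht : t ∈ Ioc 0 t₁) (hy : y ∈ Ioo (0 : ℝ) 1) (hk : 0 < S.kk t y)
    (hu : SmAt (Icc 0 t₁) u t y) (hU : SmAt (Icc 0 t₁) U t y)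
    (hΩ : Ω ∈ 𝓝[Icc 0 t₁ ×ˢ Icc 0 1] (t, y)) (h0 : 0 ≤ c * u t y - U t y)
    (h1 : ∀ q ∈ Ω, q.1 < t → c * u q.1 q.2 - U q.1 q.2 < 0)
    (h2 : ∀ q ∈ Ω, q.1 = t → c * u q.1 q.2 - U q.1 q.2 ≤ c * u t y - U t y) :
    S.LL (Icc 0 t₁) U t y ≤ c * S.LL (Icc 0 t₁) u t y := by
  have hy' := Ioo_subset_Icc_self hy
  have ht' := Ioc_subset_Icc_self ht
  have hcu := (smAt_const (I := Icc 0 t₁) (t := t) (y := y) c).mul hu
  have hF := hcu.sub hU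
  have a1 : Tendsto (fun s : ℝ => ((s, y) : ℝ × ℝ)) (𝓝[<] t) (𝓝[Icc 0 t₁ ×ˢ Icc 0 1] (t, y)) := by
    refine tendsto_nhdsWithin_iff.2 ⟨?_, ?_⟩
    · exact ((continuous_id.prodMk continuous_const).tendsto t).mono_left nhdsWithin_le_nhds
    · filter_upwards [Icc_mem_nhdsLT_of_mem ht] with s hs
      exact ⟨hs, hy'⟩
  have a2 : Tendsto (fun z : ℝ => ((t, z) : ℝ × ℝ)) (𝓝 y) (𝓝[Icc 0 t₁ ×ˢ Icc 0 1] (t, y)) := by
    refine tendsto_nhdsWithin_iff.2 ⟨(continuous_const.prodMk continuous_id).tendsto y, ?_⟩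
    filter_upwards [Icc_mem_nhds hy.1 hy.2] with z hz
    exact ⟨ht', hz⟩
  obtain ⟨-, b2⟩ := mp_T ht hy' hF (a1.eventually hΩ) h0 h1
  obtain ⟨-, -, b3, b4, -⟩ := mp_Y ht' h.pos hy hF
    ((a2.eventually hΩ).mono fun z hz => h2 (t, z) hz rfl)
  have eT : dT (Icc 0 t₁) (fun s z => c * u s z - U s z) t y =
      c * dT (Icc 0 t₁) u t y - dT (Icc 0 t₁) U t y :=
    dT_eq h.ti ht' (((hu.hasT hy').const_mul c).sub (hU.hasT hy'))
  rw [eT] at b2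
  rw [dX_sub h.ti ht' hy' hcu hU, dX_mul h.ti ht' hy' (smAt_const c) hu,
    dX_time h.ti ht' hy' (fun _ => c)] at b3
  have eD : S.Dr U t y = c * S.Dr u t y := by
    have : dX U t y = c * dX u t y := by linarith
    simp only [St.Dr, this]
    ring
  rw [dX_dX_lin h.ti ht' hy' hu hU, h.dX_dX_Dr ht' hy hk hu, h.dX_dX_Dr ht' hy hk hU, eD] at b4
  have hr := S.rho_pos (t := t) hy
  have hp : 0 < dX S.rho t y ^ 2 := by
    rw [h.dX_rho ht' hy]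
    positivity
  have b5 : c * S.Dr (S.Dr u) t y ≤ S.Dr (S.Dr U) t y := by
    refine le_of_mul_le_mul_left ?_ hp
    linarith
  have b6 := mul_le_mul_of_nonneg_left b5 hr.le
  simp only [St.LL, St.hT, eD]
  linarith

theorem St.Sol.ll_Z3 {S : St} {t₁ t y : ℝ} (h : S.Sol t₁) (ht : t ∈ Icc 0 t₁)
    (hy : y ∈ Ioo (0 : ℝ) 1) (hk : 0 < S.kk t y) :
    S.LL (Icc 0 t₁) S.Z3 t y = S.Dr (S.Dr (S.Dr S.Err)) t y := by
  rw [St.LL, h.hT_Z3 ht hy hk]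
  ring

theorem St.Sol.sm_Z2 {S : St} {t₁ t y : ℝ} (h : S.Sol t₁) (ht : t ∈ Icc 0 t₁)
    (hy : y ∈ Ioo (0 : ℝ) 1) (hk : 0 < S.kk t y) : SmAt (Icc 0 t₁) S.Z2 t y :=
  h.sm_Dr ht hy hk.ne' (h.sm_Z1 ht hy hk.ne')

theorem St.Sol.sm_Z3 {S : St} {t₁ t y : ℝ} (h : S.Sol t₁) (ht : t ∈ Icc 0 t₁)
    (hy : y ∈ Ioo (0 : ℝ) 1) (hk : 0 < S.kk t y) : SmAt (Icc 0 t₁) S.Z3 t y :=
  h.sm_Dr ht hy hk.ne' (h.sm_Z2 ht hy hk)

end Vale.Agent.P244
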